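import Mathlib

open MeasureTheory
open scoped Pointwise

namespace Vale.Agent.P227.Prod

/-- The support function of a set `K` in Euclidean space (coordinates indexed by `ι`). -/
noncomputable def supportFn {ι : Type} [Fintype ι] (K : Set (EuclideanSpace ℝ ι))
    (u : EuclideanSpace ℝ ι) : ℝ :=
  sSup ((fun x => inner ℝ x u) '' K)

/-- The Wulff body of a function on the unit sphere. -/
def wulff {ι : Type} [Fintype ι] (f : EuclideanSpace ℝ ι → ℝ) : Set (EuclideanSpace ℝ ι) :=
  {x | ∀ u : EuclideanSpace ℝ ι, ‖u‖ = 1 → inner ℝ x u ≤ f u}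

/-- The logarithmic combination of `K` and `L` with weight `lam`. -/
noncomputable def logComb {ι : Type} [Fintype ι] (K L : Set (EuclideanSpace ℝ ι)) (lam : ℝ) :
    Set (EuclideanSpace ℝ ι) :=
  wulff (fun u => supportFn K u ^ (1 - lam) * supportFn L u ^ lam)

/-- Origin-symmetric convex bodies. -/
structure IsSymmBody {ι : Type} [Fintype ι] (K : Set (EuclideanSpace ℝ ι)) : Prop where
  isCompact : IsCompact K
  convex : Convex ℝ K
  nonempty_interior : (interior K).Nonempty
  neg_mem : ∀ x ∈ K, -x ∈ K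

/-- The logarithmic Brunn-Minkowski inequality for the pair `K`, `L` at the weight `lam`. -/
def LogBM {ι : Type} [Fintype ι] (K L : Set (EuclideanSpace ℝ ι)) (lam : ℝ) : Prop :=
  volume K ^ (1 - lam) * volume L ^ lam ≤ volume (logComb K L lam)

/-- Unconditional convex bodies in `ℝ^m`. -/
structure IsUncondBody {m : ℕ} (U : Set (Fin m → ℝ)) : Prop where
  isCompact : IsCompact U
  convex : Convex ℝ U
  nonempty_interior : (interior U).Nonempty
  sign_mem : ∀ ε : Fin m → ℝ, (∀ c, ε c = 1 ∨ ε c = -1) → ∀ u ∈ U, (fun c => ε c * u c) ∈ U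

/-- The `c`-th block of a vector of `ℝ^(d 0 + ... + d (m-1))`. -/
noncomputable def blk {m : ℕ} {d : Fin m → ℕ} (c : Fin m)
    (x : EuclideanSpace ℝ ((c : Fin m) × Fin (d c))) : EuclideanSpace ℝ (Fin (d c)) :=
  WithLp.toLp 2 (fun j => x ⟨c, j⟩)

/-- The `U`-product of the sets `K c`: all `x` whose `c`-th block lies in `u c • K c`
for some `u ∈ U` with nonnegative coordinates. -/
def blockBody {m : ℕ} {d : Fin m → ℕ} (U : Set (Fin m → ℝ))
    (K : (c : Fin m) → Set (EuclideanSpace ℝ (Fin (d c)))) :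
    Set (EuclideanSpace ℝ ((c : Fin m) × Fin (d c))) :=
  {x | ∃ u ∈ U, ∀ c, 0 ≤ u c ∧ blk c x ∈ u c • K c}

end Vale.Agent.P227.Prod
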