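import Mathlib
import Vale.Agent.P227.Prod.Defs

open MeasureTheory
open scoped Pointwise

namespace Vale.Agent.P227.Prod

variable {ι : Type} [Fintype ι]

/-- [A1] `x ∈ interior K` gives `-x ∈ interior K` (K = -K, `interior_neg`), the interior is convex
(`Convex.interior`), and `0` is the midpoint. -/
theorem zero_mem_interior {K : Set (EuclideanSpace ℝ ι)} (hK : IsSymmBody K) :
    (0 : EuclideanSpace ℝ ι) ∈ interior K := by
  obtain ⟨x, hx⟩ := hK.nonempty_interior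
  have hx' : -x ∈ interior K := by
    have h1 : (Homeomorph.neg (EuclideanSpace ℝ ι)) '' (interior K) =
        interior ((Homeomorph.neg (EuclideanSpace ℝ ι)) '' K) :=
      (Homeomorph.neg (EuclideanSpace ℝ ι)).image_interior K
    have h2 : (Homeomorph.neg (EuclideanSpace ℝ ι)) '' K = K := by
      ext y
      constructor
      · rintro ⟨z, hz, rfl⟩
        exact hK.neg_mem z hz
      · intro hy
        exact ⟨-y, hK.neg_mem y hy, by simp⟩
    rw [h2] at h1
    rw [← h1]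
    exact ⟨x, hx, rfl⟩
  have := hK.convex.interior hx hx' (by norm_num : (0 : ℝ) ≤ 1 / 2) (by norm_num : (0 : ℝ) ≤ 1 / 2)
    (by norm_num)
  simpa using this

theorem mem_nhds_zero {K : Set (EuclideanSpace ℝ ι)} (hK : IsSymmBody K) :
    K ∈ nhds (0 : EuclideanSpace ℝ ι) :=
  mem_interior_iff_mem_nhds.mp (zero_mem_interior hK)

theorem zero_mem {K : Set (EuclideanSpace ℝ ι)} (hK : IsSymmBody K) :
    (0 : EuclideanSpace ℝ ι) ∈ K :=
  interior_subset (zero_mem_interior hK)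

theorem continuous_gauge_body {K : Set (EuclideanSpace ℝ ι)} (hK : IsSymmBody K) :
    Continuous (gauge K) :=
  continuous_gauge hK.convex (mem_nhds_zero hK)

/-- [A2] For `t > 0`: `x ∈ t • K ↔ t⁻¹ • x ∈ K ↔ gauge K (t⁻¹ • x) ≤ 1`
(`gauge_le_one_iff_mem_closure`, `K` closed) and `gauge_smul_of_nonneg`.
For `t = 0`: `0 • K = {0}` (`zero_smul_set`), and `gauge K x ≤ 0 ↔ gauge K x = 0 ↔ x = 0`
(`gauge_nonneg`, `gauge_eq_zero` with `absorbent_nhds_zero` and
`hK.isCompact.isBounded.isVonNBounded`). -/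
theorem mem_smul_iff_gauge_le {K : Set (EuclideanSpace ℝ ι)} (hK : IsSymmBody K) {t : ℝ}
    (ht : 0 ≤ t) (x : EuclideanSpace ℝ ι) : x ∈ t • K ↔ gauge K x ≤ t := by
  rcases eq_or_lt_of_le ht with h | h
  · subst h
    rw [Set.zero_smul_set ⟨0, zero_mem hK⟩]
    have hg : gauge K x = 0 ↔ x = 0 :=
      gauge_eq_zero (absorbent_nhds_zero (mem_nhds_zero hK))
        (NormedSpace.isVonNBounded_iff ℝ |>.2 hK.isCompact.isBounded)
    constructor
    · intro hx
      have hx0 : x = 0 := hx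
      rw [hx0, gauge_zero]
    · intro hx
      exact hg.1 (le_antisymm hx (gauge_nonneg x))
  · rw [Set.mem_smul_set_iff_inv_smul_mem₀ h.ne']
    have h1 : t⁻¹ • x ∈ K ↔ gauge K (t⁻¹ • x) ≤ 1 := by
      rw [gauge_le_one_iff_mem_closure hK.convex (mem_nhds_zero hK),
        hK.isCompact.isClosed.closure_eq]
    rw [h1, gauge_smul_of_nonneg (inv_nonneg.2 h.le), smul_eq_mul, inv_mul_le_iff₀ h, mul_one]

theorem le_supportFn {K : Set (EuclideanSpace ℝ ι)} (hK : IsCompact K)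
    (u : EuclideanSpace ℝ ι) {x : EuclideanSpace ℝ ι} (hx : x ∈ K) :
    inner ℝ x u ≤ supportFn K u := by
  apply le_csSup
  · exact (hK.image (by fun_prop)).bddAbove
  · exact ⟨x, hx, rfl⟩

theorem supportFn_nonneg {K : Set (EuclideanSpace ℝ ι)} (hK : IsSymmBody K)
    (u : EuclideanSpace ℝ ι) : 0 ≤ supportFn K u := by
  have := le_supportFn hK.isCompact u (zero_mem hK)
  simpa using this

/-- [A3] The continuous function `x ↦ ⟪x, u⟫` attains its maximum on the nonempty compact `K`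
(`IsCompact.exists_isMaxOn`); the maximum is the `sSup` (`le_antisymm`, `csSup_le`,
`le_supportFn`). -/
theorem exists_inner_eq_supportFn {K : Set (EuclideanSpace ℝ ι)} (hK : IsSymmBody K)
    (u : EuclideanSpace ℝ ι) : ∃ y ∈ K, inner ℝ y u = supportFn K u := by
  obtain ⟨y, hy, hmax⟩ := hK.isCompact.exists_isMaxOn ⟨0, zero_mem hK⟩
    (f := fun x : EuclideanSpace ℝ ι => inner ℝ x u) (by fun_prop)
  refine ⟨y, hy, le_antisymm (le_supportFn hK.isCompact u hy) ?_⟩
  apply csSup_le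
  · exact ⟨_, ⟨0, zero_mem hK, rfl⟩⟩
  · rintro _ ⟨x, hx, rfl⟩
    exact hmax hx

/-- [A4] `(fun x => ⟪x, r • u⟫) '' K = r • ((fun x => ⟪x, u⟫) '' K)` (`inner_smul_right`), then
`Real.sSup_smul_of_nonneg`. -/
theorem supportFn_smul (K : Set (EuclideanSpace ℝ ι)) {r : ℝ} (hr : 0 ≤ r)
    (u : EuclideanSpace ℝ ι) : supportFn K (r • u) = r * supportFn K u := by
  unfold supportFn
  have h : (fun x : EuclideanSpace ℝ ι => inner ℝ x (r • u)) '' K =
      r • ((fun x : EuclideanSpace ℝ ι => inner ℝ x u) '' K) := by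
    ext t
    constructor
    · rintro ⟨x, hx, rfl⟩
      exact ⟨inner ℝ x u, ⟨x, hx, rfl⟩, by simp [inner_smul_right]⟩
    · rintro ⟨_, ⟨x, hx, rfl⟩, rfl⟩
      exact ⟨x, hx, by simp [inner_smul_right]⟩
  rw [h, Real.sSup_smul_of_nonneg hr, smul_eq_mul]

/-- [A5] The two image sets coincide, because `x ∈ K ↔ -x ∈ K` and `⟪-x, -u⟫ = ⟪x, u⟫`. -/
theorem supportFn_neg {K : Set (EuclideanSpace ℝ ι)} (hK : IsSymmBody K)
    (u : EuclideanSpace ℝ ι) : supportFn K (-u) = supportFn K u := by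
  unfold supportFn
  congr 1
  ext t
  constructor
  · rintro ⟨x, hx, rfl⟩
    exact ⟨-x, hK.neg_mem x hx, by simp⟩
  · rintro ⟨x, hx, rfl⟩
    exact ⟨-x, hK.neg_mem x hx, by simp⟩

/-- [A6] `K` is bounded: `‖x‖ ≤ R` on `K` (`hK.isCompact.isBounded`), so `⟪x, u⟫ ≤ R` for unit `u`
(`real_inner_le_norm`), then `csSup_le` (the image is nonempty by `zero_mem`). -/
theorem exists_supportFn_le {K : Set (EuclideanSpace ℝ ι)} (hK : IsSymmBody K) :
    ∃ R : ℝ, 0 < R ∧ ∀ u : EuclideanSpace ℝ ι, ‖u‖ = 1 → supportFn K u ≤ R := by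
  obtain ⟨R, hR⟩ := isBounded_iff_forall_norm_le.mp hK.isCompact.isBounded
  refine ⟨max R 1, lt_of_lt_of_le one_pos (le_max_right _ _), fun u hu => ?_⟩
  apply csSup_le
  · exact ⟨_, ⟨0, zero_mem hK, rfl⟩⟩
  · rintro _ ⟨x, hx, rfl⟩
    have h1 := real_inner_le_norm x u
    rw [hu, mul_one] at h1
    exact h1.trans ((hR x hx).trans (le_max_left _ _))

/-- [A7] `Metric.closedBall 0 r ⊆ K` for some `r > 0` (`mem_nhds_zero`,
`Metric.nhds_basis_closedBall.mem_iff`); for a unit vector `u`, `r • u ∈ K` and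
`⟪r • u, u⟫ = r`; conclude by `le_supportFn`. -/
theorem exists_le_supportFn {K : Set (EuclideanSpace ℝ ι)} (hK : IsSymmBody K) :
    ∃ r : ℝ, 0 < r ∧ ∀ u : EuclideanSpace ℝ ι, ‖u‖ = 1 → r ≤ supportFn K u := by
  obtain ⟨r, hr, hsub⟩ := Metric.nhds_basis_closedBall.mem_iff.mp (mem_nhds_zero hK)
  refine ⟨r, hr, fun u hu => ?_⟩
  have hmem : r • u ∈ K := by
    apply hsub
    rw [mem_closedBall_zero_iff, norm_smul, hu, mul_one, Real.norm_of_nonneg hr.le]
  have h1 := le_supportFn hK.isCompact u hmem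
  rw [inner_smul_left, real_inner_self_eq_norm_sq, hu] at h1
  simpa using h1

/-- [A8] For `θ = 0` the left side is `0` and the right side is nonnegative. Otherwise write
`θ = ‖θ‖ • u` with `u = ‖θ‖⁻¹ • θ` a unit vector, use `hy u`, `supportFn_smul`,
`Real.mul_rpow` and `‖θ‖ ^ (1 - lam) * ‖θ‖ ^ lam = ‖θ‖` (`Real.rpow_add`). -/
theorem inner_le_of_mem_logComb {K L : Set (EuclideanSpace ℝ ι)} (hK : IsSymmBody K)
    (hL : IsSymmBody L) {lam : ℝ} {y : EuclideanSpace ℝ ι}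
    (hy : y ∈ logComb K L lam) (θ : EuclideanSpace ℝ ι) :
    inner ℝ y θ ≤ supportFn K θ ^ (1 - lam) * supportFn L θ ^ lam := by
  by_cases hθ : θ = 0
  · subst hθ
    rw [inner_zero_right]
    exact mul_nonneg (Real.rpow_nonneg (supportFn_nonneg hK _) _)
      (Real.rpow_nonneg (supportFn_nonneg hL _) _)
  have hn : 0 < ‖θ‖ := norm_pos_iff.mpr hθ
  set u : EuclideanSpace ℝ ι := ‖θ‖⁻¹ • θ with hu
  have hu1 : ‖u‖ = 1 := by
    rw [hu, norm_smul, norm_inv, norm_norm, inv_mul_cancel₀ hn.ne']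
  have hθu : θ = ‖θ‖ • u := by
    rw [hu, smul_smul, mul_inv_cancel₀ hn.ne', one_smul]
  have h3 := hy u hu1
  have e : ‖θ‖ ^ (1 - lam) * ‖θ‖ ^ lam = ‖θ‖ := by
    rw [← Real.rpow_add hn]
    simp
  rw [hθu, inner_smul_right, supportFn_smul K hn.le, supportFn_smul L hn.le,
    Real.mul_rpow hn.le (supportFn_nonneg hK u), Real.mul_rpow hn.le (supportFn_nonneg hL u)]
  calc ‖θ‖ * inner ℝ y u ≤ ‖θ‖ * (supportFn K u ^ (1 - lam) * supportFn L u ^ lam) :=
        mul_le_mul_of_nonneg_left h3 hn.le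
    _ = (‖θ‖ ^ (1 - lam) * ‖θ‖ ^ lam) * (supportFn K u ^ (1 - lam) * supportFn L u ^ lam) := by
        rw [e]
    _ = _ := by ring

/-- [A9] `wulff f = ⋂ u, ⋂ (_ : ‖u‖ = 1), {x | ⟪x, u⟫ ≤ f u}`, an intersection of closed sets
(`isClosed_iInter`, `isClosed_le`). -/
theorem isClosed_wulff (f : EuclideanSpace ℝ ι → ℝ) : IsClosed (wulff f) := by
  have : wulff f = ⋂ u : EuclideanSpace ℝ ι, ⋂ (_ : ‖u‖ = 1), {x | inner ℝ x u ≤ f u} := by
    ext x
    simp [wulff]
  rw [this]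
  refine isClosed_iInter fun u => isClosed_iInter fun _ => ?_
  exact isClosed_le (by fun_prop) continuous_const

/-- [A10] Direct: `⟪a • x + b • y, u⟫ = a * ⟪x, u⟫ + b * ⟪y, u⟫ ≤ (a + b) * f u = f u`. -/
theorem convex_wulff (f : EuclideanSpace ℝ ι → ℝ) : Convex ℝ (wulff f) := by
  intro x hx y hy a b ha hb hab u hu
  rw [inner_add_left, inner_smul_left, inner_smul_left]
  simp only [conj_trivial]
  have h1 := mul_le_mul_of_nonneg_left (hx u hu) ha
  have h2 := mul_le_mul_of_nonneg_left (hy u hu) hb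
  calc a * inner ℝ x u + b * inner ℝ y u ≤ a * f u + b * f u := add_le_add h1 h2
    _ = (a + b) * f u := by ring
    _ = f u := by rw [hab, one_mul]

/-- [A11] `⟪-x, u⟫ = ⟪x, -u⟫`, `‖-u‖ = 1`, and `supportFn_neg` for `K` and `L`. -/
theorem neg_mem_logComb {K L : Set (EuclideanSpace ℝ ι)} (hK : IsSymmBody K)
    (hL : IsSymmBody L) (lam : ℝ) : ∀ x ∈ logComb K L lam, -x ∈ logComb K L lam := by
  intro x hx u hu
  have h := hx (-u) (by rwa [norm_neg])
  simp only [supportFn_neg hK, supportFn_neg hL] at h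
  rw [inner_neg_left]
  rwa [inner_neg_right] at h

/-- [A12] With `R_K, R_L` from `exists_supportFn_le`: for `y ≠ 0` in the set and
`u = ‖y‖⁻¹ • y`, `‖y‖ = ⟪y, u⟫ ≤ h_K(u)^(1-lam) * h_L(u)^lam ≤ R_K^(1-lam) * R_L^lam`
(`Real.rpow_le_rpow`, `supportFn_nonneg`). Use `Metric.isBounded_iff_subset_closedBall`
or `isBounded_iff_forall_norm_le`. -/
theorem isBounded_logComb {K L : Set (EuclideanSpace ℝ ι)} (hK : IsSymmBody K)
    (hL : IsSymmBody L) {lam : ℝ} (h0 : 0 ≤ lam) (h1 : lam ≤ 1) :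
    Bornology.IsBounded (logComb K L lam) := by
  obtain ⟨RK, hRK0, hRK⟩ := exists_supportFn_le hK
  obtain ⟨RL, hRL0, hRL⟩ := exists_supportFn_le hL
  rw [isBounded_iff_forall_norm_le]
  refine ⟨RK ^ (1 - lam) * RL ^ lam, fun y hy => ?_⟩
  have hpos : 0 ≤ RK ^ (1 - lam) * RL ^ lam :=
    mul_nonneg (Real.rpow_nonneg hRK0.le _) (Real.rpow_nonneg hRL0.le _)
  by_cases hy0 : y = 0
  · rw [hy0, norm_zero]; exact hpos
  have hn : 0 < ‖y‖ := norm_pos_iff.mpr hy0
  set u : EuclideanSpace ℝ ι := ‖y‖⁻¹ • y with hu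
  have hu1 : ‖u‖ = 1 := by
    rw [hu, norm_smul, norm_inv, norm_norm, inv_mul_cancel₀ hn.ne']
  have h2 : inner ℝ y u = ‖y‖ := by
    rw [hu, inner_smul_right, real_inner_self_eq_norm_sq]
    field_simp
  have h3 := hy u hu1
  rw [h2] at h3
  refine h3.trans ?_
  exact mul_le_mul (Real.rpow_le_rpow (supportFn_nonneg hK u) (hRK u hu1) (by linarith))
    (Real.rpow_le_rpow (supportFn_nonneg hL u) (hRL u hu1) h0)
    (Real.rpow_nonneg (supportFn_nonneg hL u) _) (Real.rpow_nonneg hRK0.le _)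

/-- [A13] With `r_K, r_L` from `exists_le_supportFn` and `r = r_K^(1-lam) * r_L^lam > 0`:
`Metric.ball 0 r ⊆ logComb K L lam`, since `⟪y, u⟫ ≤ ‖y‖ ≤ r ≤ h_K(u)^(1-lam) * h_L(u)^lam`.
So `0` is an interior point (`interior_maximal` / `mem_interior`). -/
theorem nonempty_interior_logComb {K L : Set (EuclideanSpace ℝ ι)} (hK : IsSymmBody K)
    (hL : IsSymmBody L) {lam : ℝ} (h0 : 0 ≤ lam) (h1 : lam ≤ 1) :
    (interior (logComb K L lam)).Nonempty := by
  obtain ⟨rK, hrK0, hrK⟩ := exists_le_supportFn hK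
  obtain ⟨rL, hrL0, hrL⟩ := exists_le_supportFn hL
  have hr : 0 < rK ^ (1 - lam) * rL ^ lam :=
    mul_pos (Real.rpow_pos_of_pos hrK0 _) (Real.rpow_pos_of_pos hrL0 _)
  have hsub : Metric.ball (0 : EuclideanSpace ℝ ι) (rK ^ (1 - lam) * rL ^ lam) ⊆
      logComb K L lam := by
    intro y hy u hu1
    rw [mem_ball_zero_iff] at hy
    have h2 : inner ℝ y u ≤ ‖y‖ := by
      have := real_inner_le_norm y u
      rwa [hu1, mul_one] at this
    refine h2.trans (hy.le.trans ?_)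
    exact mul_le_mul (Real.rpow_le_rpow hrK0.le (hrK u hu1) (by linarith))
      (Real.rpow_le_rpow hrL0.le (hrL u hu1) h0)
      (Real.rpow_nonneg hrL0.le _) (Real.rpow_nonneg (supportFn_nonneg hK u) _)
  exact ⟨0, interior_maximal hsub Metric.isOpen_ball (Metric.mem_ball_self hr)⟩

theorem isSymmBody_logComb {K L : Set (EuclideanSpace ℝ ι)} (hK : IsSymmBody K)
    (hL : IsSymmBody L) {lam : ℝ} (h0 : 0 ≤ lam) (h1 : lam ≤ 1) :
    IsSymmBody (logComb K L lam) :=
  ⟨Metric.isCompact_of_isClosed_isBounded (isClosed_wulff _) (isBounded_logComb hK hL h0 h1),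
    convex_wulff _, nonempty_interior_logComb hK hL h0 h1, neg_mem_logComb hK hL lam⟩

/-- [A14] For `x ∈ K` and a unit `u`: `⟪x, u⟫ ≤ h_K(u) = h_K(u)^(1-lam) * h_K(u)^lam`
(if `h_K(u) > 0` by `Real.rpow_add`; `exists_le_supportFn` gives positivity). -/
theorem subset_logComb_self {K : Set (EuclideanSpace ℝ ι)} (hK : IsSymmBody K) (lam : ℝ) :
    K ⊆ logComb K K lam := by
  intro x hx u hu
  obtain ⟨r, hr, hru⟩ := exists_le_supportFn hK
  have hpos : 0 < supportFn K u := lt_of_lt_of_le hr (hru u hu)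
  have e : supportFn K u ^ (1 - lam) * supportFn K u ^ lam = supportFn K u := by
    rw [← Real.rpow_add hpos]
    simp
  show inner ℝ x u ≤ supportFn K u ^ (1 - lam) * supportFn K u ^ lam
  rw [e]
  exact le_supportFn hK.isCompact u hx

/-- [A15] `volume K ^ (1 - lam) * volume K ^ lam = volume K` (`ENNReal.rpow_add_of_nonneg`,
`ENNReal.rpow_one`), then `measure_mono (subset_logComb_self hK lam)`. -/
theorem logBM_self {K : Set (EuclideanSpace ℝ ι)} (hK : IsSymmBody K) {lam : ℝ} (h0 : 0 ≤ lam)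
    (h1 : lam ≤ 1) : LogBM K K lam := by
  unfold LogBM
  rw [← ENNReal.rpow_add_of_nonneg _ _ (by linarith) h0]
  simp only [sub_add_cancel, ENNReal.rpow_one]
  exact measure_mono (subset_logComb_self hK lam)

theorem volume_ne_zero {K : Set (EuclideanSpace ℝ ι)} (hK : IsSymmBody K) : volume K ≠ 0 :=
  (Measure.measure_pos_of_nonempty_interior _ hK.nonempty_interior).ne'

theorem volume_ne_top {K : Set (EuclideanSpace ℝ ι)} (hK : IsSymmBody K) : volume K ≠ ⊤ :=
  hK.isCompact.measure_lt_top.ne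

end Vale.Agent.P227.Prod
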