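import Mathlib
import Vale.Agent.P227.Prod.Defs

open MeasureTheory
open scoped Pointwise

namespace Vale.Agent.P227.Prod

variable {m : ℕ}

/-- A set of `ℝ^m` is solid if it contains `w` whenever it contains some `u` with
`|w c| ≤ |u c|` for all `c`. -/
def Solid (S : Set (Fin m → ℝ)) : Prop :=
  ∀ u ∈ S, ∀ w : Fin m → ℝ, (∀ c, |w c| ≤ |u c|) → w ∈ S

/-- [B1] One coordinate at a time. If `u ∈ U` and `|a| ≤ |u c|` then `Function.update u c a ∈ U`:
the point `u' = Function.update u c (-(u c))` is in `U` (`sign_mem` with `ε = update 1 c (-1)`),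
and `update u c a = s • u + (1 - s) • u'` with `s = (1 + a / u c) / 2 ∈ [0, 1]` (if `u c = 0`
then `a = 0` and `update u c a = u`). -/
theorem IsUncondBody.update_mem {U : Set (Fin m → ℝ)} (hU : IsUncondBody U) {u : Fin m → ℝ}
    (hu : u ∈ U) (c : Fin m) {a : ℝ} (ha : |a| ≤ |u c|) : Function.update u c a ∈ U := by
  by_cases h0 : u c = 0
  · have ha0 : a = 0 := by
      rw [h0, abs_zero] at ha
      exact abs_eq_zero.mp (le_antisymm ha (abs_nonneg _))
    have : Function.update u c a = u := by
      rw [ha0, ← h0]; exact Function.update_eq_self c u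
    rw [this]; exact hu
  · have hu' : Function.update u c (-(u c)) ∈ U := by
      have := hU.sign_mem (Function.update (fun _ => (1 : ℝ)) c (-1)) (by
        intro i
        by_cases hi : i = c
        · subst hi; right; simp
        · left; simp [Function.update_of_ne hi]) u hu
      have e : (fun i => Function.update (fun _ => (1 : ℝ)) c (-1) i * u i)
          = Function.update u c (-(u c)) := by
        funext i
        by_cases hi : i = c
        · subst hi; simp
        · simp [Function.update_of_ne hi]
      rwa [e] at this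
    have hq : |a / u c| ≤ 1 := by
      rw [abs_div]
      exact div_le_one_of_le₀ ha (abs_nonneg _)
    obtain ⟨hq1, hq2⟩ := abs_le.mp hq
    have hmem := hU.convex hu hu' (a := (1 + a / u c) / 2) (b := (1 - a / u c) / 2)
      (by linarith) (by linarith) (by ring)
    have e : ((1 + a / u c) / 2) • u + ((1 - a / u c) / 2) • Function.update u c (-(u c))
        = Function.update u c a := by
      funext i
      by_cases hi : i = c
      · subst hi
        simp only [Pi.add_apply, Pi.smul_apply, smul_eq_mul, Function.update_self]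
        field_simp
        ring
      · simp only [Pi.add_apply, Pi.smul_apply, smul_eq_mul, Function.update_of_ne hi]
        ring
    rwa [e] at hmem

/-- [B2] Induction on a finset `s` of coordinates (`Finset.induction_on`): the vector
`fun c => if c ∈ s then w c else u c` is in `U`; the step is `IsUncondBody.update_mem`
(`insert a s` version = `Function.update (s version) a (w a)`, and the `a`-th coordinate of the
`s` version is `u a` because `a ∉ s`). Take `s = Finset.univ`. -/
theorem IsUncondBody.solid {U : Set (Fin m → ℝ)} (hU : IsUncondBody U) : Solid U := by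
  intro u hu w hw
  have key : ∀ s : Finset (Fin m), (fun c => if c ∈ s then w c else u c) ∈ U := by
    intro s
    induction s using Finset.induction_on with
    | empty => simpa using hu
    | insert a s ha ih =>
      have h1 := hU.update_mem ih a (a := w a) (by simpa [ha] using hw a)
      have h2 : Function.update (fun c => if c ∈ s then w c else u c) a (w a) =
          fun c => if c ∈ insert a s then w c else u c := by
        funext c
        by_cases hc : c = a
        · subst hc
          simp
        · simp [Function.update_of_ne hc, Finset.mem_insert, hc]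
      rwa [h2] at h1
  simpa using key Finset.univ

/-- [B3] As for symmetric bodies: `U = -U` (`sign_mem` with `ε = -1`), so `x ∈ interior U` gives
`-x ∈ interior U`; the interior is convex and `0` is the midpoint. -/
theorem IsUncondBody.zero_mem_interior {U : Set (Fin m → ℝ)} (hU : IsUncondBody U) :
    (0 : Fin m → ℝ) ∈ interior U := by
  obtain ⟨x, hx⟩ := hU.nonempty_interior
  have hneg : ∀ u ∈ U, -u ∈ U := by
    intro u hu
    have := hU.sign_mem (fun _ => -1) (fun _ => Or.inr rfl) u hu
    have h2 : (fun c => (-1 : ℝ) * u c) = -u := by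
      funext c
      simp
    rwa [h2] at this
  have hnegU : -U = U := by
    ext u
    constructor
    · intro hu
      have := hneg (-u) hu
      simpa using this
    · intro hu
      exact hneg u hu
  have hx' : -x ∈ interior U := by
    have h3 := (Homeomorph.neg (Fin m → ℝ)).image_interior U
    have h4 : (Homeomorph.neg (Fin m → ℝ)) '' U = U := by
      ext u
      constructor
      · rintro ⟨v, hv, rfl⟩
        exact hneg v hv
      · intro hu
        exact ⟨-u, hneg u hu, by simp⟩
    rw [h4] at h3
    rw [← h3]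
    exact ⟨x, hx, rfl⟩
  have hc := hU.convex.interior
  have := hc hx hx' (a := 1/2) (b := 1/2) (by norm_num) (by norm_num) (by norm_num)
  simpa using this

/-- The geometric mean `U^(1-lam) V^lam` of two solid sets. -/
def geomBody (U V : Set (Fin m → ℝ)) (lam : ℝ) : Set (Fin m → ℝ) :=
  {w | ∃ u ∈ U, ∃ v ∈ V, ∀ c, |w c| ≤ |u c| ^ (1 - lam) * |v c| ^ lam}

theorem solid_geomBody (U V : Set (Fin m → ℝ)) (lam : ℝ) : Solid (geomBody U V lam) := by
  rintro w' ⟨u, hu, v, hv, h⟩ w hw
  exact ⟨u, hu, v, hv, fun c => (hw c).trans (h c)⟩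

/-- [B4] `geomBody U V lam` is the image of the compact set
`U ×ˢ V ×ˢ (Set.pi Set.univ fun _ => Set.Icc (-1) 1)` under the continuous map
`(u, v, e) ↦ fun c => e c * (|u c| ^ (1 - lam) * |v c| ^ lam)`
(continuity: `Real.continuous_rpow_const` / `Continuous.rpow_const` with nonnegative exponent).
For `⊆` take `e c = w c / (|u c| ^ (1 - lam) * |v c| ^ lam)` (and `e c = 0` if the denominator
vanishes). -/
theorem isCompact_geomBody {U V : Set (Fin m → ℝ)} (hU : IsCompact U) (hV : IsCompact V)
    {lam : ℝ} (h0 : 0 ≤ lam) (h1 : lam ≤ 1) : IsCompact (geomBody U V lam) := by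
  have hE : IsCompact (Set.pi Set.univ fun _ : Fin m => Set.Icc (-1 : ℝ) 1) :=
    isCompact_univ_pi fun _ => isCompact_Icc
  have hcomp := hU.prod (hV.prod hE)
  set Φ : (Fin m → ℝ) × (Fin m → ℝ) × (Fin m → ℝ) → (Fin m → ℝ) :=
    fun q c => q.2.2 c * (|q.1 c| ^ (1 - lam) * |q.2.1 c| ^ lam) with hΦ
  have hcont : Continuous Φ := by
    refine continuous_pi fun c => ?_
    have c1 : Continuous fun q : (Fin m → ℝ) × (Fin m → ℝ) × (Fin m → ℝ) => q.2.2 c := by
      fun_prop
    have c2 : Continuous fun q : (Fin m → ℝ) × (Fin m → ℝ) × (Fin m → ℝ) =>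
        |q.1 c| ^ (1 - lam) :=
      Continuous.rpow_const (by fun_prop) (fun _ => Or.inr (by linarith))
    have c3 : Continuous fun q : (Fin m → ℝ) × (Fin m → ℝ) × (Fin m → ℝ) =>
        |q.2.1 c| ^ lam :=
      Continuous.rpow_const (by fun_prop) (fun _ => Or.inr h0)
    exact c1.mul (c2.mul c3)
  have himg : geomBody U V lam =
      Φ '' (U ×ˢ (V ×ˢ (Set.pi Set.univ fun _ : Fin m => Set.Icc (-1 : ℝ) 1))) := by
    ext w
    constructor
    · rintro ⟨u, hu, v, hv, h⟩
      refine ⟨(u, v, fun c => w c / (|u c| ^ (1 - lam) * |v c| ^ lam)), ⟨hu, hv, ?_⟩, ?_⟩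
      · intro c _
        have hd : 0 ≤ |u c| ^ (1 - lam) * |v c| ^ lam :=
          mul_nonneg (Real.rpow_nonneg (abs_nonneg _) _) (Real.rpow_nonneg (abs_nonneg _) _)
        show w c / (|u c| ^ (1 - lam) * |v c| ^ lam) ∈ Set.Icc (-1 : ℝ) 1
        rw [Set.mem_Icc, ← abs_le, abs_div, abs_of_nonneg hd]
        exact div_le_one_of_le₀ (h c) hd
      · funext c
        simp only [hΦ]
        by_cases hz : |u c| ^ (1 - lam) * |v c| ^ lam = 0
        · have hw : w c = 0 := by
            have := h c
            rw [hz] at this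
            exact abs_eq_zero.mp (le_antisymm this (abs_nonneg _))
          rw [hz, hw]
          simp
        · exact div_mul_cancel₀ _ hz
    · rintro ⟨⟨u, v, e⟩, ⟨hu, hv, he⟩, rfl⟩
      refine ⟨u, hu, v, hv, fun c => ?_⟩
      have hd : 0 ≤ |u c| ^ (1 - lam) * |v c| ^ lam :=
        mul_nonneg (Real.rpow_nonneg (abs_nonneg _) _) (Real.rpow_nonneg (abs_nonneg _) _)
      have hec : |e c| ≤ 1 := by
        have := he c (Set.mem_univ c)
        exact abs_le.mpr this
      simp only [hΦ]
      rw [abs_mul, abs_of_nonneg hd]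
      exact mul_le_of_le_one_left hd hec
  rw [himg]
  exact hcomp.image hcont

theorem measurableSet_geomBody {U V : Set (Fin m → ℝ)} (hU : IsCompact U) (hV : IsCompact V)
    {lam : ℝ} (h0 : 0 ≤ lam) (h1 : lam ≤ 1) : MeasurableSet (geomBody U V lam) :=
  (isCompact_geomBody hU hV h0 h1).isClosed.measurableSet

/-- [B5] `|x ^ p * y ^ q| = |x ^ p| * |y ^ q| ≤ |x| ^ p * |y| ^ q` by
`Real.abs_rpow_le_abs_rpow`. -/
theorem rpow_mul_rpow_mem_geomBody {U V : Set (Fin m → ℝ)} {x y : Fin m → ℝ} (hx : x ∈ U)
    (hy : y ∈ V) (lam : ℝ) : (fun c => x c ^ (1 - lam) * y c ^ lam) ∈ geomBody U V lam := by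
  refine ⟨x, hx, y, hy, fun c => ?_⟩
  rw [abs_mul]
  exact mul_le_mul (Real.abs_rpow_le_abs_rpow _ _) (Real.abs_rpow_le_abs_rpow _ _) (abs_nonneg _)
    (Real.rpow_nonneg (abs_nonneg _) _)

end Vale.Agent.P227.Prod
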