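import Mathlib
import Vale.Agent.P227.Prod.Defs
import Vale.Agent.P227.Prod.Basic
import Vale.Agent.P227.Prod.Uncond

open MeasureTheory
open scoped Pointwise

namespace Vale.Agent.P227.Prod

variable {m : ℕ} {d : Fin m → ℕ}

@[simp] theorem blk_apply (c : Fin m) (x : EuclideanSpace ℝ ((c : Fin m) × Fin (d c)))
    (j : Fin (d c)) : blk c x j = x ⟨c, j⟩ := rfl

@[simp] theorem blk_zero (c : Fin m) :
    blk c (0 : EuclideanSpace ℝ ((c : Fin m) × Fin (d c))) = 0 := by
  ext j; simp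

@[simp] theorem blk_add (c : Fin m) (x y : EuclideanSpace ℝ ((c : Fin m) × Fin (d c))) :
    blk c (x + y) = blk c x + blk c y := by
  ext j; simp

@[simp] theorem blk_smul (c : Fin m) (a : ℝ) (x : EuclideanSpace ℝ ((c : Fin m) × Fin (d c))) :
    blk c (a • x) = a • blk c x := by
  ext j; simp

@[simp] theorem blk_neg (c : Fin m) (x : EuclideanSpace ℝ ((c : Fin m) × Fin (d c))) :
    blk c (-x) = -blk c x := by
  ext j; simp

/-- Put blocks together. -/
noncomputable def assemble (y : (c : Fin m) → EuclideanSpace ℝ (Fin (d c))) :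
    EuclideanSpace ℝ ((c : Fin m) × Fin (d c)) :=
  WithLp.toLp 2 (fun p => y p.1 p.2)

@[simp] theorem blk_assemble (y : (c : Fin m) → EuclideanSpace ℝ (Fin (d c))) (c : Fin m) :
    blk c (assemble y) = y c := by
  ext j; simp [assemble]

@[simp] theorem assemble_blk (x : EuclideanSpace ℝ ((c : Fin m) × Fin (d c))) :
    assemble (fun c => blk c x) = x := by
  ext p; simp [assemble]

/-- The vector of the gauges of the blocks. -/
noncomputable def gaugeMap (K : (c : Fin m) → Set (EuclideanSpace ℝ (Fin (d c))))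
    (x : EuclideanSpace ℝ ((c : Fin m) × Fin (d c))) : Fin m → ℝ :=
  fun c => gauge (K c) (blk c x)

/-- [E1] `blk c x = toLp 2 (fun j => x ⟨c, j⟩)`: `PiLp.continuous_toLp`, `continuous_pi`,
and continuity of the coordinates of `x` (`fun_prop` may do everything after `unfold blk`). -/
theorem continuous_blk (c : Fin m) :
    Continuous (blk c : EuclideanSpace ℝ ((c : Fin m) × Fin (d c)) → _) := by
  unfold blk
  refine (PiLp.continuous_toLp 2 _).comp ?_
  exact continuous_pi fun j => (EuclideanSpace.proj (⟨c, j⟩ : (c : Fin m) × Fin (d c))).continuous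

theorem continuous_gaugeMap {K : (c : Fin m) → Set (EuclideanSpace ℝ (Fin (d c)))}
    (hK : ∀ c, IsSymmBody (K c)) : Continuous (gaugeMap K) :=
  continuous_pi fun c => (continuous_gauge_body (hK c)).comp (continuous_blk c)

/-- [E2] `⊆`: from `u ∈ S`, `0 ≤ u c`, `blk c x ∈ u c • K c` get `gauge (K c) (blk c x) ≤ u c`
(`mem_smul_iff_gauge_le`), so `|gaugeMap K x c| ≤ |u c|` (`gauge_nonneg`, `abs_of_nonneg`) and
`hS` applies. `⊇`: take `u = gaugeMap K x` (`gauge_nonneg`, `mem_smul_iff_gauge_le`, `le_rfl`). -/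
theorem blockBody_eq_preimage {K : (c : Fin m) → Set (EuclideanSpace ℝ (Fin (d c)))}
    (hK : ∀ c, IsSymmBody (K c)) {S : Set (Fin m → ℝ)} (hS : Solid S) :
    blockBody S K = gaugeMap K ⁻¹' S := by
  ext x
  constructor
  · rintro ⟨u, hu, h⟩
    refine hS u hu _ fun c => ?_
    have h1 := (mem_smul_iff_gauge_le (hK c) (h c).1 _).mp (h c).2
    have h0 : 0 ≤ gauge (K c) (blk c x) := gauge_nonneg _
    show |gauge (K c) (blk c x)| ≤ |u c|
    rw [abs_of_nonneg h0, abs_of_nonneg (h c).1]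
    exact h1
  · intro hx
    refine ⟨gaugeMap K x, hx, fun c => ⟨gauge_nonneg _, ?_⟩⟩
    exact (mem_smul_iff_gauge_le (hK c) (gauge_nonneg _) _).mpr le_rfl

/-- [E3] `PiLp.inner_apply` on both sides, `Fintype.sum_sigma`. -/
theorem inner_eq_sum_blk (x θ : EuclideanSpace ℝ ((c : Fin m) × Fin (d c))) :
    inner ℝ x θ = ∑ c, inner ℝ (blk c x) (blk c θ) := by
  simp only [PiLp.inner_apply, Fintype.sum_sigma, blk_apply]

/-- [E4] `blockBody U K` is the image of the compact set
`(U ∩ {u | ∀ c, 0 ≤ u c}) ×ˢ Set.pi Set.univ K` (`IsCompact.inter_right`, `isCompact_univ_pi`,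
`IsCompact.prod`) under the continuous map `(u, y) ↦ assemble (fun c => u c • y c)`.
Set equality: `x_c ∈ u c • K c ↔ ∃ y_c ∈ K c, u c • y_c = x_c` (`Set.mem_smul_set`), `choose`,
`assemble_blk`, `blk_assemble`. -/
theorem isCompact_blockBody {U : Set (Fin m → ℝ)} (hU : IsCompact U)
    {K : (c : Fin m) → Set (EuclideanSpace ℝ (Fin (d c)))} (hK : ∀ c, IsCompact (K c)) :
    IsCompact (blockBody U K) := by
  have hpos : IsClosed {u : Fin m → ℝ | ∀ c, 0 ≤ u c} := by
    have : {u : Fin m → ℝ | ∀ c, 0 ≤ u c} = ⋂ c, {u : Fin m → ℝ | 0 ≤ u c} := by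
      ext u; simp
    rw [this]
    exact isClosed_iInter fun c => isClosed_le continuous_const (continuous_apply c)
  have hC : IsCompact ((U ∩ {u : Fin m → ℝ | ∀ c, 0 ≤ u c}) ×ˢ Set.pi Set.univ K) :=
    (hU.inter_right hpos).prod (isCompact_univ_pi hK)
  have hcont : Continuous (fun p : (Fin m → ℝ) × ((c : Fin m) → EuclideanSpace ℝ (Fin (d c))) =>
      assemble (fun c => p.1 c • p.2 c)) := by
    unfold assemble
    refine (PiLp.continuous_toLp 2 _).comp ?_
    refine continuous_pi fun q => ?_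
    have h1 : Continuous (fun p : (Fin m → ℝ) × ((c : Fin m) → EuclideanSpace ℝ (Fin (d c))) =>
        p.1 q.1 • p.2 q.1) :=
      ((continuous_apply q.1).comp continuous_fst).smul ((continuous_apply q.1).comp continuous_snd)
    exact (EuclideanSpace.proj q.2).continuous.comp h1
  have himg : blockBody U K = (fun p : (Fin m → ℝ) × ((c : Fin m) → EuclideanSpace ℝ (Fin (d c))) =>
      assemble (fun c => p.1 c • p.2 c)) ''
        ((U ∩ {u : Fin m → ℝ | ∀ c, 0 ≤ u c}) ×ˢ Set.pi Set.univ K) := by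
    ext x
    constructor
    · rintro ⟨u, hu, hx⟩
      have hy : ∀ c, ∃ y ∈ K c, u c • y = blk c x := fun c => Set.mem_smul_set.1 (hx c).2
      choose y hyK hyx using hy
      refine ⟨(u, y), ⟨⟨hu, fun c => (hx c).1⟩, fun c _ => hyK c⟩, ?_⟩
      simp only [hyx]
      exact assemble_blk x
    · rintro ⟨⟨u, y⟩, ⟨⟨hu, hu0⟩, hy⟩, rfl⟩
      refine ⟨u, hu, fun c => ⟨hu0 c, ?_⟩⟩
      simp only [blk_assemble]
      exact Set.smul_mem_smul_set (hy c (Set.mem_univ c))
  rw [himg]
  exact hC.image hcont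

/-- [E5] For `x, x'` with witnesses `u, u'` and `a + b = 1`, the witness for `a • x + b • x'` is
`a • u + b • u' ∈ U`; `blk c (a • x + b • x') = a • blk c x + b • blk c x'
∈ a • u c • K c + b • u' c • K c = (a * u c + b * u' c) • K c` by `Convex.add_smul`
(and `smul_smul`, `Set.add_mem_add`, `Set.smul_mem_smul_set`). -/
theorem convex_blockBody {U : Set (Fin m → ℝ)} (hU : Convex ℝ U)
    {K : (c : Fin m) → Set (EuclideanSpace ℝ (Fin (d c)))} (hK : ∀ c, Convex ℝ (K c)) :
    Convex ℝ (blockBody U K) := by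
  rintro x ⟨u, hu, hx⟩ x' ⟨u', hu', hx'⟩ a b ha hb hab
  refine ⟨a • u + b • u', hU hu hu' ha hb hab, fun c => ⟨?_, ?_⟩⟩
  · simp only [Pi.add_apply, Pi.smul_apply, smul_eq_mul]
    exact add_nonneg (mul_nonneg ha (hx c).1) (mul_nonneg hb (hx' c).1)
  · simp only [Pi.add_apply, Pi.smul_apply, smul_eq_mul, blk_add, blk_smul]
    rw [(hK c).add_smul (mul_nonneg ha (hx c).1) (mul_nonneg hb (hx' c).1)]
    refine Set.add_mem_add ?_ ?_
    · rw [← smul_smul]
      exact Set.smul_mem_smul_set (hx c).2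
    · rw [← smul_smul]
      exact Set.smul_mem_smul_set (hx' c).2

/-- [E6] `gaugeMap K ⁻¹' interior U` is open (`continuous_gaugeMap`), contains `0`
(`gaugeMap K 0 = 0` by `blk_zero`, `gauge_zero`; `IsUncondBody.zero_mem_interior`) and is
contained in `blockBody U K` (`blockBody_eq_preimage` with `hU.solid`, `interior_subset`);
`interior_maximal`. -/
theorem nonempty_interior_blockBody {U : Set (Fin m → ℝ)} (hU : IsUncondBody U)
    {K : (c : Fin m) → Set (EuclideanSpace ℝ (Fin (d c)))} (hK : ∀ c, IsSymmBody (K c)) :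
    (interior (blockBody U K)).Nonempty := by
  have hopen : IsOpen (gaugeMap K ⁻¹' interior U) :=
    isOpen_interior.preimage (continuous_gaugeMap hK)
  have hsub : gaugeMap K ⁻¹' interior U ⊆ blockBody U K := by
    rw [blockBody_eq_preimage hK hU.solid]
    exact Set.preimage_mono interior_subset
  have h0 : (0 : EuclideanSpace ℝ ((c : Fin m) × Fin (d c))) ∈ gaugeMap K ⁻¹' interior U := by
    have e : gaugeMap K (0 : EuclideanSpace ℝ ((c : Fin m) × Fin (d c))) = 0 := by
      funext c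
      simp [gaugeMap]
    rw [Set.mem_preimage, e]
    exact hU.zero_mem_interior
  exact ⟨0, interior_maximal hsub hopen h0⟩

/-- [E7] Same witness `u`; `blk c (-x) = -blk c x`, and `y ∈ u c • K c → -y ∈ u c • K c`
(`Set.mem_smul_set`, `smul_neg`, `neg_mem`). -/
theorem neg_mem_blockBody (U : Set (Fin m → ℝ))
    {K : (c : Fin m) → Set (EuclideanSpace ℝ (Fin (d c)))} (hK : ∀ c, IsSymmBody (K c)) :
    ∀ x ∈ blockBody U K, -x ∈ blockBody U K := by
  rintro x ⟨u, hu, hx⟩
  refine ⟨u, hu, fun c => ⟨(hx c).1, ?_⟩⟩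
  obtain ⟨y, hy, hyx⟩ := Set.mem_smul_set.1 (hx c).2
  rw [blk_neg, ← hyx, ← smul_neg]
  exact Set.smul_mem_smul_set ((hK c).neg_mem y hy)

theorem isSymmBody_blockBody {U : Set (Fin m → ℝ)} (hU : IsUncondBody U)
    {K : (c : Fin m) → Set (EuclideanSpace ℝ (Fin (d c)))} (hK : ∀ c, IsSymmBody (K c)) :
    IsSymmBody (blockBody U K) :=
  ⟨isCompact_blockBody hU.isCompact fun c => (hK c).isCompact,
    convex_blockBody hU.convex fun c => (hK c).convex,
    nonempty_interior_blockBody hU hK, neg_mem_blockBody U hK⟩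

/-- [E8] Choose `y c ∈ K c` with `⟪y c, blk c θ⟫ = supportFn (K c) (blk c θ)`
(`exists_inner_eq_supportFn`, `choose`). The point `x = assemble (fun c => |u c| • y c)` lies in
`blockBody U K` (witness `fun c => |u c|`, which is in `U` by `hU.solid`), and
`⟪x, θ⟫ = ∑ c, |u c| * supportFn (K c) (blk c θ)` (`inner_eq_sum_blk`, `blk_assemble`,
`inner_smul_left`). Conclude by `le_supportFn (isCompact_blockBody ..)`. -/
theorem sum_le_supportFn_blockBody {U : Set (Fin m → ℝ)} (hU : IsUncondBody U)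
    {K : (c : Fin m) → Set (EuclideanSpace ℝ (Fin (d c)))} (hK : ∀ c, IsSymmBody (K c))
    {u : Fin m → ℝ} (hu : u ∈ U) (θ : EuclideanSpace ℝ ((c : Fin m) × Fin (d c))) :
    ∑ c, |u c| * supportFn (K c) (blk c θ) ≤ supportFn (blockBody U K) θ := by
  choose y hyK hy using fun c => exists_inner_eq_supportFn (hK c) (blk c θ)
  have hmem : assemble (fun c => |u c| • y c) ∈ blockBody U K := by
    refine ⟨fun c => |u c|, hU.solid u hu _ (fun c => by simp), fun c => ⟨abs_nonneg _, ?_⟩⟩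
    rw [blk_assemble]
    exact Set.smul_mem_smul_set (hyK c)
  have h := le_supportFn (isCompact_blockBody hU.isCompact fun c => (hK c).isCompact) θ hmem
  rw [inner_eq_sum_blk] at h
  refine le_trans (le_of_eq ?_) h
  refine Finset.sum_congr rfl fun c _ => ?_
  rw [blk_assemble, inner_smul_left, hy c]
  simp

theorem holder_sum {β : Type} (s : Finset β) (a c : β → ℝ) (ha : ∀ i ∈ s, 0 ≤ a i)
    (hc : ∀ i ∈ s, 0 ≤ c i) (lam : ℝ) (h0 : 0 ≤ lam) (h1 : lam ≤ 1) :
    ∑ i ∈ s, a i ^ (1 - lam) * c i ^ lam ≤ (∑ i ∈ s, a i) ^ (1 - lam) * (∑ i ∈ s, c i) ^ lam := by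
  rcases eq_or_lt_of_le h0 with h | h0'
  · subst h; simp
  rcases eq_or_lt_of_le h1 with h | h1'
  · subst h; simp
  have hp : (1 / (1 - lam)).HolderConjugate (1 / lam) := by
    rw [Real.holderConjugate_iff]
    constructor
    · rw [lt_div_iff₀ (by linarith)]; linarith
    · field_simp; ring
  have := Real.inner_le_Lp_mul_Lq_of_nonneg s (f := fun i => a i ^ (1 - lam))
    (g := fun i => c i ^ lam) hp (fun i hi => Real.rpow_nonneg (ha i hi) _)
    (fun i hi => Real.rpow_nonneg (hc i hi) _)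
  refine this.trans (le_of_eq ?_)
  have e1 : ∀ i ∈ s, (a i ^ (1 - lam)) ^ (1 / (1 - lam)) = a i := by
    intro i hi
    rw [← Real.rpow_mul (ha i hi), mul_one_div_cancel (by linarith), Real.rpow_one]
  have e2 : ∀ i ∈ s, (c i ^ lam) ^ (1 / lam) = c i := by
    intro i hi
    rw [← Real.rpow_mul (hc i hi), mul_one_div_cancel (by linarith), Real.rpow_one]
  rw [Finset.sum_congr rfl e1, Finset.sum_congr rfl e2]
  simp

/-- [E9] One block. `z = w • y` with `y ∈ logComb K L lam` (`Set.mem_smul_set`), so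
`⟪z, θ⟫ = w * ⟪y, θ⟫ ≤ w * (h_K(θ)^(1-lam) * h_L(θ)^lam)` (`inner_le_of_mem_logComb`, `hw0`)
`≤ (a^(1-lam) * b^lam) * (h_K(θ)^(1-lam) * h_L(θ)^lam)` (`hw`, nonnegativity of the second factor)
`= (a * h_K(θ))^(1-lam) * (b * h_L(θ))^lam` (`Real.mul_rpow`, `supportFn_nonneg`, `ring`). -/
theorem inner_le_of_mem_smul_logComb {k : ℕ} {K L : Set (EuclideanSpace ℝ (Fin k))}
    (hK : IsSymmBody K) (hL : IsSymmBody L) {lam : ℝ} {w a b : ℝ} (hw0 : 0 ≤ w) (ha : 0 ≤ a)
    (hb : 0 ≤ b) (hw : w ≤ a ^ (1 - lam) * b ^ lam) {z : EuclideanSpace ℝ (Fin k)}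
    (hz : z ∈ w • logComb K L lam) (θ : EuclideanSpace ℝ (Fin k)) :
    inner ℝ z θ ≤ (a * supportFn K θ) ^ (1 - lam) * (b * supportFn L θ) ^ lam := by
  obtain ⟨y, hy, rfl⟩ := Set.mem_smul_set.mp hz
  have h1 := inner_le_of_mem_logComb hK hL hy θ
  have hKn := supportFn_nonneg hK θ
  have hLn := supportFn_nonneg hL θ
  have h2 : 0 ≤ supportFn K θ ^ (1 - lam) * supportFn L θ ^ lam :=
    mul_nonneg (Real.rpow_nonneg hKn _) (Real.rpow_nonneg hLn _)
  rw [real_inner_smul_left, Real.mul_rpow ha hKn, Real.mul_rpow hb hLn]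
  calc w * inner ℝ y θ ≤ w * (supportFn K θ ^ (1 - lam) * supportFn L θ ^ lam) :=
        mul_le_mul_of_nonneg_left h1 hw0
    _ ≤ (a ^ (1 - lam) * b ^ lam) * (supportFn K θ ^ (1 - lam) * supportFn L θ ^ lam) :=
        mul_le_mul_of_nonneg_right hw h2
    _ = _ := by ring

/-- The key inclusion. -/
theorem blockBody_geomBody_subset {U V : Set (Fin m → ℝ)} (hU : IsUncondBody U)
    (hV : IsUncondBody V) {K L : (c : Fin m) → Set (EuclideanSpace ℝ (Fin (d c)))}
    (hK : ∀ c, IsSymmBody (K c)) (hL : ∀ c, IsSymmBody (L c)) {lam : ℝ} (h0 : 0 ≤ lam)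
    (h1 : lam ≤ 1) :
    blockBody (geomBody U V lam) (fun c => logComb (K c) (L c) lam) ⊆
      logComb (blockBody U K) (blockBody V L) lam := by
  rintro x ⟨w, ⟨u, hu, v, hv, hwuv⟩, hx⟩ θ _
  have hA := sum_le_supportFn_blockBody hU hK hu θ
  have hB := sum_le_supportFn_blockBody hV hL hv θ
  have hA0 : 0 ≤ ∑ c, |u c| * supportFn (K c) (blk c θ) :=
    Finset.sum_nonneg fun c _ => mul_nonneg (abs_nonneg _) (supportFn_nonneg (hK c) _)
  have hB0 : 0 ≤ ∑ c, |v c| * supportFn (L c) (blk c θ) :=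
    Finset.sum_nonneg fun c _ => mul_nonneg (abs_nonneg _) (supportFn_nonneg (hL c) _)
  calc inner ℝ x θ = ∑ c, inner ℝ (blk c x) (blk c θ) := inner_eq_sum_blk x θ
    _ ≤ ∑ c, (|u c| * supportFn (K c) (blk c θ)) ^ (1 - lam)
          * (|v c| * supportFn (L c) (blk c θ)) ^ lam := by
        refine Finset.sum_le_sum fun c _ => ?_
        refine inner_le_of_mem_smul_logComb (hK c) (hL c) (hx c).1 (abs_nonneg _) (abs_nonneg _)
          ?_ (hx c).2 _
        exact (le_abs_self _).trans (hwuv c)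
    _ ≤ (∑ c, |u c| * supportFn (K c) (blk c θ)) ^ (1 - lam)
          * (∑ c, |v c| * supportFn (L c) (blk c θ)) ^ lam :=
        holder_sum _ _ _
          (fun c _ => mul_nonneg (abs_nonneg _) (supportFn_nonneg (hK c) _))
          (fun c _ => mul_nonneg (abs_nonneg _) (supportFn_nonneg (hL c) _)) lam h0 h1
    _ ≤ supportFn (blockBody U K) θ ^ (1 - lam) * supportFn (blockBody V L) θ ^ lam := by
        apply mul_le_mul
        · exact Real.rpow_le_rpow hA0 hA (by linarith)
        · exact Real.rpow_le_rpow hB0 hB h0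
        · exact Real.rpow_nonneg hB0 _
        · exact Real.rpow_nonneg (hA0.trans hA) _

end Vale.Agent.P227.Prod
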