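import Mathlib
import Vale.Agent.P227.Prod.Defs
import Vale.Agent.P227.Prod.Basic
import Vale.Agent.P227.Prod.Uncond
import Vale.Agent.P227.Prod.Block

open MeasureTheory
open scoped Pointwise

namespace Vale.Agent.P227.Prod

/-- The measure `k t^(k-1) dt` on `(0, ∞)`: the law of the gauge of a body of volume one
in `ℝ^k`. -/
noncomputable def rho (k : ℕ) : Measure ℝ :=
  (volume.restrict (Set.Ioi 0)).withDensity (fun t => ENNReal.ofReal (k * t ^ (k - 1)))

instance sigmaFinite_rho (k : ℕ) : SigmaFinite (rho k) := by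
  unfold rho
  exact SigmaFinite.withDensity_ofReal _

/-- [C1] `withDensity_apply _ measurableSet_Iic`, `Measure.restrict_restrict`; the set is
`Set.Iic t ∩ Set.Ioi 0`, empty for `t ≤ 0` and `Set.Ioc 0 t` for `t > 0`. For `t > 0`:
`∫⁻ x in Ioc 0 t, ofReal (k * x^(k-1)) = ofReal (∫ x in (0)..t, k * x^(k-1)) = ofReal (t^k)`
(`ofReal_integral_eq_lintegral_ofReal`, `intervalIntegral.integral_of_le`, `integral_pow` or
`intervalIntegral.integral_eq_sub_of_hasDerivAt` with `hasDerivAt_pow`). -/
theorem rho_Iic (k : ℕ) (hk : 0 < k) (t : ℝ) :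
    rho k (Set.Iic t) = ENNReal.ofReal ((max t 0) ^ k) := by
  unfold rho
  rw [withDensity_apply _ measurableSet_Iic, Measure.restrict_restrict measurableSet_Iic]
  rcases le_or_gt t 0 with ht | ht
  · have h1 : Set.Iic t ∩ Set.Ioi 0 = ∅ := by
      ext x; simp only [Set.mem_inter_iff, Set.mem_Iic, Set.mem_Ioi, Set.mem_empty_iff_false,
        iff_false, not_and, not_lt]
      intro hx; linarith
    rw [h1, max_eq_right ht, zero_pow hk.ne']
    simp
  · have h1 : Set.Iic t ∩ Set.Ioi 0 = Set.Ioc 0 t := by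
      ext x; simp only [Set.mem_inter_iff, Set.mem_Iic, Set.mem_Ioi, Set.mem_Ioc]; tauto
    rw [h1, max_eq_left ht.le]
    have hcont : Continuous (fun x : ℝ => (k : ℝ) * x ^ (k - 1)) := by fun_prop
    have hint : IntegrableOn (fun x : ℝ => (k : ℝ) * x ^ (k - 1)) (Set.Ioc 0 t) volume :=
      (hcont.integrableOn_Icc (a := 0) (b := t)).mono_set Set.Ioc_subset_Icc_self
    have hnn : 0 ≤ᵐ[volume.restrict (Set.Ioc 0 t)] (fun x : ℝ => (k : ℝ) * x ^ (k - 1)) := by
      refine (ae_restrict_iff' measurableSet_Ioc).mpr (Filter.Eventually.of_forall ?_)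
      intro x hx
      have : 0 ≤ x := hx.1.le
      positivity
    rw [← ofReal_integral_eq_lintegral_ofReal hint hnn]
    congr 1
    rw [← intervalIntegral.integral_of_le ht.le]
    have hd : ∀ x ∈ Set.uIcc (0:ℝ) t, HasDerivAt (fun x : ℝ => x ^ k) ((k : ℝ) * x ^ (k - 1)) x :=
      fun x _ => hasDerivAt_pow k x
    rw [intervalIntegral.integral_eq_sub_of_hasDerivAt hd (hcont.intervalIntegrable _ _)]
    simp [zero_pow hk.ne']

/-- [C2] `lintegral_withDensity_eq_lintegral_mul`, then the change of variables `t = exp s`: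
`lintegral_image_eq_lintegral_abs_deriv_mul MeasurableSet.univ (fun x _ =>
(Real.hasDerivAt_exp x).hasDerivWithinAt) Real.exp_injective.injOn`, with
`Real.exp '' Set.univ = Set.Ioi 0` (`Set.image_univ`, `Real.range_exp`), and
`exp s * (k * (exp s)^(k-1)) = k * exp (k * s)` for `k ≥ 1` (both sides vanish for `k = 0`). -/
theorem lintegral_rho (k : ℕ) (f : ℝ → ENNReal) (hf : Measurable f) :
    ∫⁻ t, f t ∂(rho k) = ∫⁻ s : ℝ, f (Real.exp s) * ENNReal.ofReal (k * Real.exp (k * s)) := by
  unfold rho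
  rw [lintegral_withDensity_eq_lintegral_mul _ (by fun_prop) hf]
  have h := lintegral_image_eq_lintegral_abs_deriv_mul (s := Set.univ) MeasurableSet.univ
    (fun x _ => (Real.hasDerivAt_exp x).hasDerivWithinAt) Real.exp_injective.injOn
    (fun t => ENNReal.ofReal (k * t ^ (k - 1)) * f t)
  rw [Set.image_univ, Real.range_exp] at h
  simp only [Pi.mul_apply]
  rw [h, Measure.restrict_univ]
  refine lintegral_congr fun s => ?_
  rw [abs_of_pos (Real.exp_pos s), ← mul_assoc, ← ENNReal.ofReal_mul (Real.exp_pos s).le, mul_comm]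
  congr 2
  rcases Nat.eq_zero_or_pos k with rfl | hk
  · simp
  · have : Real.exp (k * s) = Real.exp s * Real.exp s ^ (k - 1) := by
      rw [← pow_succ', Nat.sub_add_cancel hk, ← Real.exp_nat_mul]
    rw [this]; ring

/-- [C3] For `t < 0` the set is empty (`gauge_nonneg`) and `rho_Iic` gives `0`. For `t ≥ 0` the set
is `t • K` (`mem_smul_iff_gauge_le`) and `Measure.addHaar_smul` gives
`ofReal |t ^ finrank| * volume K` with `finrank ℝ (EuclideanSpace ℝ (Fin k)) = k`
(`finrank_euclideanSpace_fin`); compare with `rho_Iic`. -/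
theorem volume_gauge_le {k : ℕ} (hk : 0 < k) {K : Set (EuclideanSpace ℝ (Fin k))}
    (hK : IsSymmBody K) (t : ℝ) :
    volume {y | gauge K y ≤ t} = volume K * rho k (Set.Iic t) := by
  rw [rho_Iic k hk]
  rcases lt_or_ge t 0 with ht | ht
  · have : {y | gauge K y ≤ t} = ∅ := by
      ext y
      simp only [Set.mem_empty_iff_false, iff_false]
      exact fun h => absurd (lt_of_le_of_lt h ht) (not_lt.mpr (gauge_nonneg y))
    rw [this, max_eq_right ht.le, zero_pow hk.ne']
    simp
  · have : {y | gauge K y ≤ t} = t • K := by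
      ext y
      exact (mem_smul_iff_gauge_le hK ht y).symm
    rw [this, Measure.addHaar_smul, finrank_euclideanSpace_fin, max_eq_left ht,
      abs_of_nonneg (pow_nonneg ht k), mul_comm]

variable {m : ℕ} {d : Fin m → ℕ}

/-- [C4] Currying preserves the product measure. `Measure.pi_eq_generateFrom` (symmetric form)
with `C c = Set.pi Set.univ '' Set.pi Set.univ fun _ => {s | MeasurableSet s}` (boxes):
`generateFrom_pi`, `isPiSystem_pi`, `Measure.FiniteSpanningSetsIn.pi`
(with `Measure.toFiniteSpanningSetsIn`). On a product of boxes: `Measure.map_apply`, the preimage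
under `Sigma.curry` of `pi univ fun c => pi univ (t c)` is `pi univ fun p => t p.1 p.2`,
`Measure.pi_pi` three times, and `Fintype.prod_sigma`. -/
theorem map_piCurry_pi :
    (Measure.pi fun _ : (c : Fin m) × Fin (d c) => (volume : Measure ℝ)).map
        (MeasurableEquiv.piCurry fun (c : Fin m) (_ : Fin (d c)) => ℝ) =
      Measure.pi fun c : Fin m => Measure.pi fun _ : Fin (d c) => (volume : Measure ℝ) := by
  rw [MeasurableEquiv.map_apply_eq_iff_map_symm_apply_eq]
  refine Measure.pi_eq fun s hs => ?_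
  rw [MeasurableEquiv.map_apply]
  have : (⇑(MeasurableEquiv.piCurry fun (c : Fin m) (_ : Fin (d c)) => ℝ).symm ⁻¹' Set.pi Set.univ s)
      = Set.pi Set.univ fun c => Set.pi Set.univ fun j => s ⟨c, j⟩ := by
    ext f
    simp only [Set.mem_preimage, Set.mem_pi, Set.mem_univ, forall_true_left]
    constructor
    · intro h c j
      exact h ⟨c, j⟩
    · rintro h ⟨c, j⟩
      exact h c j
  rw [this, Measure.pi_pi]
  simp_rw [Measure.pi_pi]
  rw [Fintype.prod_sigma]

/-- [C5] Transport `map_piCurry_pi` to Euclidean spaces. `volume` on `EuclideanSpace ℝ ι` is the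
image of `Measure.pi fun _ => volume` under `WithLp.toLp 2` (`PiLp.volume_preserving_toLp`,
`PiLp.volume_preserving_ofLp`, `volume_pi`). So
`volume {x | ∀ c, blk c x ∈ A c} = (pi volume) {f | ∀ c, toLp 2 (fun j => f ⟨c, j⟩) ∈ A c}
 = (pi fun c => pi volume) (Set.pi univ fun c => toLp 2 ⁻¹' A c) = ∏ c, volume (A c)`
(`MeasurePreserving.measure_preimage`, `Measure.map_apply`, `Measure.pi_pi`). -/
theorem volume_blockSet (A : (c : Fin m) → Set (EuclideanSpace ℝ (Fin (d c))))
    (hA : ∀ c, MeasurableSet (A c)) :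
    volume {x : EuclideanSpace ℝ ((c : Fin m) × Fin (d c)) | ∀ c, blk c x ∈ A c} =
      ∏ c, volume (A c) := by
  have hB : ∀ c, MeasurableSet ((WithLp.toLp 2 : (Fin (d c) → ℝ) → EuclideanSpace ℝ (Fin (d c))) ⁻¹' A c) :=
    fun c => (PiLp.volume_preserving_toLp (Fin (d c))).measurable (hA c)
  have hbox : MeasurableSet (Set.pi Set.univ fun c : Fin m =>
      ((WithLp.toLp 2 : (Fin (d c) → ℝ) → EuclideanSpace ℝ (Fin (d c))) ⁻¹' A c)) :=
    MeasurableSet.univ_pi hB
  -- step 1: pull back to the plain pi type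
  have e1 : {x : EuclideanSpace ℝ ((c : Fin m) × Fin (d c)) | ∀ c, blk c x ∈ A c} =
      (WithLp.ofLp : EuclideanSpace ℝ ((c : Fin m) × Fin (d c)) → _) ⁻¹'
        ((MeasurableEquiv.piCurry fun (c : Fin m) (_ : Fin (d c)) => ℝ) ⁻¹'
          (Set.pi Set.univ fun c : Fin m =>
            ((WithLp.toLp 2 : (Fin (d c) → ℝ) → EuclideanSpace ℝ (Fin (d c))) ⁻¹' A c))) := by
    ext x
    simp only [Set.mem_setOf_eq, Set.mem_preimage, Set.mem_pi, Set.mem_univ, true_implies]
    rfl
  rw [e1, (PiLp.volume_preserving_ofLp ((c : Fin m) × Fin (d c))).measure_preimage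
    ((MeasurableEquiv.measurable _ hbox).nullMeasurableSet), volume_pi,
    ← Measure.map_apply (MeasurableEquiv.measurable _) hbox, map_piCurry_pi, Measure.pi_pi]
  refine Finset.prod_congr rfl fun c _ => ?_
  rw [← volume_pi, (PiLp.volume_preserving_toLp (Fin (d c))).measure_preimage
    (hA c).nullMeasurableSet]

/-- [C6] The preimage is `{x | ∀ c, blk c x ∈ {y | gauge (K c) y ≤ t c}}`; these sets are closed
(`continuous_gauge_body`, `isClosed_le`) hence measurable; `volume_blockSet`, `volume_gauge_le`,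
`Finset.prod_mul_distrib`. -/
theorem volume_gaugeMap_box (hd : ∀ c, 0 < d c)
    {K : (c : Fin m) → Set (EuclideanSpace ℝ (Fin (d c)))} (hK : ∀ c, IsSymmBody (K c))
    (t : Fin m → ℝ) :
    volume (gaugeMap K ⁻¹' Set.pi Set.univ fun c => Set.Iic (t c)) =
      (∏ c, volume (K c)) * ∏ c, rho (d c) (Set.Iic (t c)) := by
  have : gaugeMap K ⁻¹' Set.pi Set.univ (fun c => Set.Iic (t c)) =
      {x | ∀ c, blk c x ∈ {y | gauge (K c) y ≤ t c}} := by
    ext x
    simp only [Set.mem_preimage, Set.mem_pi, Set.mem_univ, forall_true_left, Set.mem_Iic]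
    exact Iff.rfl
  rw [this, volume_blockSet _ (fun c =>
    (isClosed_le (continuous_gauge_body (hK c)) continuous_const).measurableSet)]
  simp_rw [volume_gauge_le (hd _) (hK _)]
  rw [Finset.prod_mul_distrib]

/-- [C7] Uniqueness. Apply `Measure.pi_eq_generateFrom` with `C c = Set.range Set.Iic`
(`borel_eq_generateFrom_Iic`, `BorelSpace.measurable_eq`, `isPiSystem_Iic`; finite spanning sets
`Set.Iic (n : ℝ)`, finite by `rho_Iic`) to the measure `a⁻¹ • μ`, getting
`Measure.pi (fun c => rho (d c)) = a⁻¹ • μ`; then `a • a⁻¹ • μ = μ`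
(`smul_smul`, `ENNReal.mul_inv_cancel ha0 hat`, `one_smul`). -/
theorem eq_smul_pi_rho (hd : ∀ c, 0 < d c) (μ : Measure (Fin m → ℝ)) (a : ENNReal)
    (ha0 : a ≠ 0) (hat : a ≠ ⊤)
    (h : ∀ t : Fin m → ℝ, μ (Set.pi Set.univ fun c => Set.Iic (t c)) =
      a * ∏ c, rho (d c) (Set.Iic (t c))) :
    μ = a • Measure.pi fun c => rho (d c) := by
  have key : Measure.pi (fun c => rho (d c)) = a⁻¹ • μ := by
    refine Measure.pi_eq_generateFrom (C := fun _ => Set.range Set.Iic) (fun c => ?_)
      (fun c => isPiSystem_Iic) (fun c => ?_) ?_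
    · rw [← borel_eq_generateFrom_Iic]
      exact (BorelSpace.measurable_eq).symm
    · refine ⟨fun n => Set.Iic (n : ℝ), fun n => ⟨_, rfl⟩, fun n => ?_, ?_⟩
      · rw [rho_Iic _ (hd c)]
        exact ENNReal.ofReal_lt_top
      · ext x
        simp only [Set.mem_iUnion, Set.mem_Iic, Set.mem_univ, iff_true]
        exact exists_nat_ge x
    · intro s hs
      choose t ht using hs
      have hs' : s = fun c => Set.Iic (t c) := by
        funext c
        exact (ht c).symm
      subst hs'
      rw [Measure.smul_apply, h t, smul_eq_mul, ← mul_assoc, ENNReal.inv_mul_cancel ha0 hat,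
        one_mul]
  rw [key, smul_smul, ENNReal.mul_inv_cancel ha0 hat, one_smul]

theorem map_gaugeMap (hd : ∀ c, 0 < d c)
    {K : (c : Fin m) → Set (EuclideanSpace ℝ (Fin (d c)))} (hK : ∀ c, IsSymmBody (K c)) :
    Measure.map (gaugeMap K) volume = (∏ c, volume (K c)) • Measure.pi fun c => rho (d c) := by
  refine eq_smul_pi_rho hd _ _ ?_ ?_ fun t => ?_
  · exact Finset.prod_ne_zero_iff.mpr fun c _ => volume_ne_zero (hK c)
  · exact ENNReal.prod_ne_top fun c _ => volume_ne_top (hK c)
  · rw [Measure.map_apply (continuous_gaugeMap hK).measurable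
      (MeasurableSet.univ_pi fun c => measurableSet_Iic)]
    exact volume_gaugeMap_box hd hK t

/-- The volume formula for `S`-products. -/
theorem volume_blockBody (hd : ∀ c, 0 < d c)
    {K : (c : Fin m) → Set (EuclideanSpace ℝ (Fin (d c)))} (hK : ∀ c, IsSymmBody (K c))
    {S : Set (Fin m → ℝ)} (hS : Solid S) (hSm : MeasurableSet S) :
    volume (blockBody S K) = (∏ c, volume (K c)) * (Measure.pi fun c => rho (d c)) S := by
  rw [blockBody_eq_preimage hK hS, ← Measure.map_apply (continuous_gaugeMap hK).measurable hSm,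
    map_gaugeMap hd hK]
  simp

end Vale.Agent.P227.Prod
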