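import Mathlib
import Vale.Agent.P227.Prod.Defs
import Vale.Agent.P227.Prod.Uncond
import Vale.Agent.P227.Prod.Vol

open MeasureTheory Set
open scoped Pointwise

/-!
Prekopa-Leindler with a general weight `0 < lam < 1`. The midpoint case is already proved in
`Vale/Agent/P074/Third/BM1.lean`, `PL1.lean`, `PL.lean` (same names): every proof below is an
adaptation of the proof of the lemma of the same name there.
-/

namespace Vale.Agent.P227.Prod

/-- [D1] The image is `a • K` translated by `c`: `Measure.addHaar_smul` (finrank ℝ ℝ = 1),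
`image_add_right`, `measure_preimage_add_right`. Compare `volume_half_image` in P074/Third/BM1. -/
theorem volume_affine_image {a : ℝ} (ha : 0 < a) (K : Set ℝ) (c : ℝ) :
    volume ((fun x : ℝ => a * x + c) '' K) = ENNReal.ofReal a * volume K := by
  have h1 : (fun x : ℝ => a * x + c) '' K = (fun x : ℝ => x + c) '' (a • K) := by
    rw [← image_smul, image_image]
    rfl
  rw [h1, image_add_right, measure_preimage_add_right, Measure.addHaar_smul]
  congr 1
  simp [abs_of_pos ha]

/-- [D2] One-dimensional Brunn-Minkowski for compact sets. Let `a = max K₁`, `b = min K₂`,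
`p = (1 - lam) * a + lam * b`. Then `(fun x => (1 - lam) * x + lam * b) '' K₁ ⊆ C ∩ Iic p` and
`(fun y => lam * y + (1 - lam) * a) '' K₂ ⊆ (C \ Iic p) ∪ {p}`; use `volume_affine_image` and
`measure_inter_add_sdiff`. Adapt `bm_one_compact` of P074/Third/BM1. -/
theorem bm_one_compact {lam : ℝ} (h0 : 0 < lam) (h1 : lam < 1) (K₁ K₂ C : Set ℝ)
    (c1 : IsCompact K₁) (c2 : IsCompact K₂) (n1 : K₁.Nonempty) (n2 : K₂.Nonempty)
    (H : ∀ a, a ∈ K₁ → ∀ b, b ∈ K₂ → (1 - lam) * a + lam * b ∈ C) :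
    ENNReal.ofReal (1 - lam) * volume K₁ + ENNReal.ofReal lam * volume K₂ ≤ volume C := by
  have h1' : 0 < 1 - lam := by linarith
  obtain ⟨a, ha, hamax⟩ := c1.exists_isGreatest n1
  obtain ⟨b, hb, hbmin⟩ := c2.exists_isLeast n2
  set m : ℝ := (1 - lam) * a + lam * b with hm
  have hS : (fun x : ℝ => (1 - lam) * x + lam * b) '' K₁ ⊆ C ∩ Iic m := by
    rintro _ ⟨x, hx, rfl⟩
    refine ⟨H x hx b hb, ?_⟩
    have := hamax hx
    simp only [mem_Iic, hm]
    nlinarith
  have hT : (fun y : ℝ => lam * y + (1 - lam) * a) '' K₂ ⊆ (C \ Iic m) ∪ {m} := by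
    rintro _ ⟨y, hy, rfl⟩
    have h := hbmin hy
    have hc : lam * y + (1 - lam) * a ∈ C := by
      have := H a ha y hy
      rwa [add_comm] at this
    by_cases hyb : y = b
    · right
      simp only [mem_singleton_iff, hm, hyb, add_comm]
    · left
      refine ⟨hc, ?_⟩
      have hlt : b < y := lt_of_le_of_ne h (Ne.symm hyb)
      simp only [mem_Iic, hm, not_le]
      nlinarith
  have e1 := measure_mono (μ := volume) hS
  have e2 := measure_mono (μ := volume) hT
  rw [volume_affine_image h1'] at e1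
  rw [volume_affine_image h0] at e2
  have e3 : volume ((C \ Iic m) ∪ {m}) ≤ volume (C \ Iic m) := by
    refine (measure_union_le _ _).trans ?_
    simp
  have e4 : volume (C ∩ Iic m) + volume (C \ Iic m) = volume C :=
    measure_inter_add_sdiff C measurableSet_Iic
  rw [← e4]
  exact add_le_add e1 (e2.trans e3)

/-- [D3] Inner regularity (`MeasurableSet.measure_eq_iSup_isCompact`), `ENNReal.mul_iSup`,
`ENNReal.biSup_add_biSup_le'`, and `bm_one_compact` applied to `insert a₀ K₁`, `insert b₀ K₂`.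
Adapt `bm_one` of P074/Third/BM1. -/
theorem bm_one {lam : ℝ} (h0 : 0 < lam) (h1 : lam < 1) (A B C : Set ℝ) (hA : MeasurableSet A)
    (hB : MeasurableSet B) (hAn : A.Nonempty) (hBn : B.Nonempty)
    (H : ∀ a, a ∈ A → ∀ b, b ∈ B → (1 - lam) * a + lam * b ∈ C) :
    ENNReal.ofReal (1 - lam) * volume A + ENNReal.ofReal lam * volume B ≤ volume C := by
  obtain ⟨a₀, ha₀⟩ := hAn
  obtain ⟨b₀, hb₀⟩ := hBn
  rw [hA.measure_eq_iSup_isCompact, hB.measure_eq_iSup_isCompact]
  simp only [iSup_and', ENNReal.mul_iSup]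
  refine ENNReal.biSup_add_biSup_le' ⟨∅, by simp⟩ ⟨∅, by simp⟩ ?_
  rintro K₁ ⟨hK₁, c1⟩ K₂ ⟨hK₂, c2⟩
  have h := bm_one_compact h0 h1 (insert a₀ K₁) (insert b₀ K₂) C (c1.insert a₀) (c2.insert b₀)
    (insert_nonempty _ _) (insert_nonempty _ _)
    (fun a ha b hb => H a (insert_subset ha₀ hK₁ ha) b (insert_subset hb₀ hK₂ hb))
  refine le_trans (add_le_add ?_ ?_) h
  · gcongr
    exact subset_insert _ _
  · gcongr
    exact subset_insert _ _

/-- Copied from P074/Third/PL1. -/
theorem layer_cake_le_one (u : ℝ → ENNReal) (hu : Measurable u) (hu1 : ∀ x, u x ≤ 1) :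
    ∫⁻ x, u x = ∫⁻ t in Set.Ioi (0:ℝ), volume {x | ENNReal.ofReal t < u x} := by
  have hne : ∀ x, u x ≠ ⊤ := fun x => ne_top_of_le_ne_top ENNReal.one_ne_top (hu1 x)
  have := lintegral_eq_lintegral_meas_lt volume (f := fun x => (u x).toReal)
    (Filter.Eventually.of_forall fun x => ENNReal.toReal_nonneg) hu.ennreal_toReal.aemeasurable
  simp_rw [ENNReal.ofReal_toReal (hne _)] at this
  rw [this]
  refine setLIntegral_congr_fun measurableSet_Ioi fun t ht => ?_
  congr 1
  ext x
  simp only [Set.mem_ofPred_eq]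
  rw [ENNReal.ofReal_lt_iff_lt_toReal (le_of_lt ht) (hne x)]

/-- [D4] Normalised case (both suprema equal to one). Replace `h` by `min h 1`, write the three
integrals by `layer_cake_le_one`, and compare the integrands for each level `t` with `bm_one`:
if `ofReal t < f a` and `ofReal t < g b` then
`ofReal t = (ofReal t)^(1-lam) * (ofReal t)^lam < f a^(1-lam) * g b^lam ≤ h (..)`
(`ENNReal.rpow_lt_rpow`, `ENNReal.mul_lt_mul`, `ENNReal.rpow_add_of_nonneg`). For `ofReal t ≥ 1`
both level sets are empty. Adapt `pl_norm` of P074/Third/PL1. -/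
theorem pl_norm {lam : ℝ} (h0 : 0 < lam) (h1 : lam < 1) (f g h : ℝ → ENNReal)
    (hf : Measurable f) (hg : Measurable g) (hh : Measurable h)
    (hf1 : ∀ x, f x ≤ 1) (hf2 : ∀ t : ENNReal, t < 1 → ∃ x, t < f x)
    (hg1 : ∀ x, g x ≤ 1) (hg2 : ∀ t : ENNReal, t < 1 → ∃ x, t < g x)
    (H : ∀ x y, f x ^ (1 - lam) * g y ^ lam ≤ h ((1 - lam) * x + lam * y)) :
    ENNReal.ofReal (1 - lam) * (∫⁻ x, f x) + ENNReal.ofReal lam * (∫⁻ x, g x) ≤ ∫⁻ x, h x := by
  have hm : Measurable fun x => min (h x) 1 := hh.min measurable_const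
  have hle : ∫⁻ x, min (h x) 1 ≤ ∫⁻ x, h x := lintegral_mono fun x => min_le_left _ _
  refine le_trans ?_ hle
  rw [layer_cake_le_one f hf hf1, layer_cake_le_one g hg hg1,
    layer_cake_le_one _ hm (fun x => min_le_right _ _)]
  have hanti : ∀ u : ℝ → ENNReal, Measurable fun t : ℝ => volume {x | ENNReal.ofReal t < u x} := by
    intro u
    apply Antitone.measurable
    intro s t hst
    apply measure_mono
    intro x hx
    exact lt_of_le_of_lt (ENNReal.ofReal_le_ofReal hst) hx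
  rw [← lintegral_const_mul _ (hanti f), ← lintegral_const_mul _ (hanti g),
    ← lintegral_add_left ((hanti f).const_mul _)]
  refine setLIntegral_mono' measurableSet_Ioi fun t ht => ?_
  by_cases ht1 : ENNReal.ofReal t < 1
  · refine bm_one h0 h1 _ _ _ (measurableSet_lt measurable_const hf)
      (measurableSet_lt measurable_const hg) (hf2 _ ht1) (hg2 _ ht1) ?_
    intro a ha b hb
    simp only [Set.mem_ofPred_eq] at ha hb ⊢
    refine lt_min ?_ ht1
    have e : ENNReal.ofReal t = ENNReal.ofReal t ^ (1 - lam) * ENNReal.ofReal t ^ lam := by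
      rw [← ENNReal.rpow_add_of_nonneg _ _ (by linarith) h0.le]
      simp
    have h2 : ENNReal.ofReal t ^ (1 - lam) * ENNReal.ofReal t ^ lam <
        f a ^ (1 - lam) * g b ^ lam :=
      ENNReal.mul_lt_mul (ENNReal.rpow_lt_rpow ha (by linarith)) (ENNReal.rpow_lt_rpow hb h0)
    rw [← e] at h2
    exact lt_of_lt_of_le h2 (H a b)
  · have e1 : {x | ENNReal.ofReal t < f x} = ∅ := by
      ext x
      simp only [Set.mem_ofPred_eq, Set.mem_empty_iff_false, iff_false, not_lt]
      exact (hf1 x).trans (not_lt.mp ht1)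
    have e2 : {x | ENNReal.ofReal t < g x} = ∅ := by
      ext x
      simp only [Set.mem_ofPred_eq, Set.mem_empty_iff_false, iff_false, not_lt]
      exact (hg1 x).trans (not_lt.mp ht1)
    rw [e1, e2]
    simp

/-- [D5] Weighted AM-GM in `ENNReal`: `ENNReal.geom_mean_le_arith_mean2_weighted` with weights
`ofReal (1 - lam)`, `ofReal lam` (their sum is `1` by `ENNReal.ofReal_add`;
`ENNReal.toReal_ofReal`). -/
theorem amgm_ennreal {lam : ℝ} (h0 : 0 < lam) (h1 : lam < 1) (x y : ENNReal) :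
    x ^ (1 - lam) * y ^ lam ≤ ENNReal.ofReal (1 - lam) * x + ENNReal.ofReal lam * y := by
  have h1' : 0 < 1 - lam := by linarith
  induction x using ENNReal.recTopCoe with
  | top =>
    have : ENNReal.ofReal (1 - lam) * ⊤ = ⊤ := ENNReal.mul_top (by simpa using h1')
    rw [this]
    simp
  | coe x =>
    induction y using ENNReal.recTopCoe with
    | top =>
      have : ENNReal.ofReal lam * ⊤ = ⊤ := ENNReal.mul_top (by simpa using h0)
      rw [this]
      simp
    | coe y =>
      have hs : (1 - lam).toNNReal + lam.toNNReal = 1 := by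
        rw [← Real.toNNReal_add h1'.le h0.le]
        simp
      have h := NNReal.geom_mean_le_arith_mean2_weighted (1 - lam).toNNReal lam.toNNReal x y hs
      rw [Real.coe_toNNReal _ h1'.le, Real.coe_toNNReal _ h0.le] at h
      rw [← ENNReal.coe_rpow_of_nonneg _ h1'.le, ← ENNReal.coe_rpow_of_nonneg _ h0.le]
      unfold ENNReal.ofReal
      exact_mod_cast h

/-- [D6] Bounded case. With `a = ⨆ f`, `b = ⨆ g` (if one of them is `0` the left side is `0`),
`c = a^(1-lam) * b^lam`, apply `pl_norm` to `f * a⁻¹`, `g * b⁻¹`, `h * c⁻¹`, then `amgm_ennreal`,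
and cancel `c⁻¹` (`ENNReal.mul_rpow_of_nonneg`, `ENNReal.inv_rpow`, `lintegral_mul_const`).
Adapt `pl_bdd` of P074/Third/PL1. -/
theorem pl_bdd {lam : ℝ} (h0 : 0 < lam) (h1 : lam < 1) (f g h : ℝ → ENNReal)
    (hf : Measurable f) (hg : Measurable g) (hh : Measurable h)
    (hfb : (⨆ x, f x) ≠ ⊤) (hgb : (⨆ x, g x) ≠ ⊤)
    (H : ∀ x y, f x ^ (1 - lam) * g y ^ lam ≤ h ((1 - lam) * x + lam * y)) :
    (∫⁻ x, f x) ^ (1 - lam) * (∫⁻ x, g x) ^ lam ≤ ∫⁻ x, h x := by
  have h1' : 0 < 1 - lam := by linarith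
  set a := ⨆ x, f x with ha
  set b := ⨆ x, g x with hb
  by_cases ha0 : a = 0
  · have : ∀ x, f x = 0 := fun x => le_antisymm (ha0 ▸ le_iSup f x) (zero_le)
    simp [this, ENNReal.zero_rpow_of_pos h1']
  by_cases hb0 : b = 0
  · have : ∀ x, g x = 0 := fun x => le_antisymm (hb0 ▸ le_iSup g x) (zero_le)
    simp [this, ENNReal.zero_rpow_of_pos h0]
  set c : ENNReal := a ^ (1 - lam) * b ^ lam with hc
  have hinv : c⁻¹ = (a⁻¹) ^ (1 - lam) * (b⁻¹) ^ lam := by
    rw [hc, ENNReal.inv_rpow, ENNReal.inv_rpow, ENNReal.mul_inv]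
    · left
      simp [ha0, h1'.le, hfb]
    · left
      simp [ha0, h1'.le, hfb]
  have hc0 : c⁻¹ ≠ 0 := by
    rw [hc]
    simp only [ne_eq, ENNReal.inv_eq_zero]
    exact ENNReal.mul_ne_top (ENNReal.rpow_ne_top_of_nonneg h1'.le hfb)
      (ENNReal.rpow_ne_top_of_nonneg h0.le hgb)
  have hct : c⁻¹ ≠ ⊤ := by
    rw [hc]
    simp only [ne_eq, ENNReal.inv_eq_top, mul_eq_zero, not_or]
    constructor
    · simp [ha0, h1'.le, hfb]
    · simp [hb0, h0.le, hgb]
  have key := pl_norm h0 h1 (fun x => f x * a⁻¹) (fun x => g x * b⁻¹) (fun x => h x * c⁻¹)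
    (hf.mul_const _) (hg.mul_const _) (hh.mul_const _) ?_ ?_ ?_ ?_ ?_
  · rw [lintegral_mul_const _ hf, lintegral_mul_const _ hg, lintegral_mul_const _ hh] at key
    set I := ∫⁻ x, f x
    set J := ∫⁻ x, g x
    set K := ∫⁻ x, h x
    have h2 := (amgm_ennreal h0 h1 (I * a⁻¹) (J * b⁻¹)).trans key
    rw [ENNReal.mul_rpow_of_nonneg _ _ h1'.le, ENNReal.mul_rpow_of_nonneg _ _ h0.le] at h2
    have h3 : (I ^ (1 - lam) * J ^ lam) * c⁻¹ ≤ K * c⁻¹ := by
      calc (I ^ (1 - lam) * J ^ lam) * c⁻¹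
          = I ^ (1 - lam) * a⁻¹ ^ (1 - lam) * (J ^ lam * b⁻¹ ^ lam) := by rw [hinv]; ring
        _ ≤ K * c⁻¹ := h2
    exact (ENNReal.mul_le_mul_iff_left hc0 hct).1 h3
  · intro x
    rw [← div_eq_mul_inv]
    exact ENNReal.div_le_of_le_mul (by rw [one_mul]; exact le_iSup f x)
  · intro t ht
    have h1 : t * a < a := by
      calc t * a < 1 * a := (ENNReal.mul_lt_mul_iff_left ha0 hfb).2 ht
        _ = a := one_mul a
    obtain ⟨x, hx⟩ := lt_iSup_iff.1 h1
    refine ⟨x, ?_⟩
    rw [← div_eq_mul_inv]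
    exact (ENNReal.lt_div_iff_mul_lt (Or.inl ha0) (Or.inl hfb)).2 hx
  · intro x
    rw [← div_eq_mul_inv]
    exact ENNReal.div_le_of_le_mul (by rw [one_mul]; exact le_iSup g x)
  · intro t ht
    have h1 : t * b < b := by
      calc t * b < 1 * b := (ENNReal.mul_lt_mul_iff_left hb0 hgb).2 ht
        _ = b := one_mul b
    obtain ⟨x, hx⟩ := lt_iSup_iff.1 h1
    refine ⟨x, ?_⟩
    rw [← div_eq_mul_inv]
    exact (ENNReal.lt_div_iff_mul_lt (Or.inl hb0) (Or.inl hgb)).2 hx
  · intro x y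
    rw [ENNReal.mul_rpow_of_nonneg _ _ h1'.le, ENNReal.mul_rpow_of_nonneg _ _ h0.le]
    calc f x ^ (1 - lam) * a⁻¹ ^ (1 - lam) * (g y ^ lam * b⁻¹ ^ lam)
        = (f x ^ (1 - lam) * g y ^ lam) * c⁻¹ := by rw [hinv]; ring
      _ ≤ h ((1 - lam) * x + lam * y) * c⁻¹ := mul_le_mul_left (H x y) _

/-- [D7] Truncation: `∫⁻ u = ⨆ N : ℕ, ∫⁻ min u N` (monotone convergence, as in `pl_one` of
P074/Third/PL1), `(⨆ N, a N) ^ p = ⨆ N, a N ^ p` for `p > 0`
(`(ENNReal.orderIsoRpow p hp).map_iSup`), `ENNReal.iSup_mul`, `ENNReal.mul_iSup`, `iSup_le`, and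
`pl_bdd` for `min f M`, `min g N`, `h` (monotonicity: `ENNReal.rpow_le_rpow`). -/
theorem pl_one {lam : ℝ} (h0 : 0 < lam) (h1 : lam < 1) (f g h : ℝ → ENNReal)
    (hf : Measurable f) (hg : Measurable g) (hh : Measurable h)
    (H : ∀ x y, f x ^ (1 - lam) * g y ^ lam ≤ h ((1 - lam) * x + lam * y)) :
    (∫⁻ x, f x) ^ (1 - lam) * (∫⁻ x, g x) ^ lam ≤ ∫⁻ x, h x := by
  have h1' : 0 < 1 - lam := by linarith
  have trunc : ∀ u : ℝ → ENNReal, Measurable u →
      ∫⁻ x, u x = ⨆ N : ℕ, ∫⁻ x, min (u x) N := by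
    intro u hu
    rw [← lintegral_iSup (fun N => hu.min measurable_const)]
    · refine lintegral_congr fun x => ?_
      refine le_antisymm ?_ (iSup_le fun N => min_le_left _ _)
      by_cases hx : u x = ⊤
      · rw [hx]
        simp only [le_top, inf_of_le_right]
        rw [ENNReal.iSup_natCast]
      · obtain ⟨N, hN⟩ := ENNReal.exists_nat_gt hx
        exact le_iSup_of_le N (le_min le_rfl hN.le)
    · intro M N hMN x
      exact min_le_min le_rfl (by exact_mod_cast hMN)
  have hpow : ∀ (p : ℝ) (hp : 0 < p) (a : ℕ → ENNReal), (⨆ N, a N) ^ p = ⨆ N, a N ^ p := by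
    intro p hp a
    exact (ENNReal.orderIsoRpow p hp).map_iSup a
  rw [trunc f hf, trunc g hg, hpow _ h1', hpow _ h0]
  rw [ENNReal.iSup_mul]
  refine iSup_le fun M => ?_
  rw [ENNReal.mul_iSup]
  refine iSup_le fun N => ?_
  refine pl_bdd h0 h1 _ _ h (hf.min measurable_const) (hg.min measurable_const) hh ?_ ?_ ?_
  · exact ne_top_of_le_ne_top (ENNReal.natCast_ne_top M) (iSup_le fun x => min_le_right _ _)
  · exact ne_top_of_le_ne_top (ENNReal.natCast_ne_top N) (iSup_le fun x => min_le_right _ _)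
  · intro x y
    exact (mul_le_mul' (ENNReal.rpow_le_rpow (min_le_left _ _) h1'.le)
      (ENNReal.rpow_le_rpow (min_le_left _ _) h0.le)).trans (H x y)

/-- [D8] Multiplicative form for the measure `rho k`. Rewrite the three integrals by
`lintegral_rho` and apply `pl_one` to `F s = f (exp s) * ofReal (k * exp (k * s))` etc.
Hypothesis of `pl_one`: `ENNReal.mul_rpow_of_nonneg`; `H (exp s) (exp t)` with
`exp s ^ (1 - lam) * exp t ^ lam = exp ((1 - lam) * s + lam * t)` (`Real.exp_mul`, `Real.exp_add`);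
and `ofReal (k * exp (k s)) ^ (1 - lam) * ofReal (k * exp (k t)) ^ lam
 = ofReal (k * exp (k * ((1 - lam) * s + lam * t)))` (`ENNReal.ofReal_rpow_of_pos`,
`ENNReal.ofReal_mul`, `Real.mul_rpow`, `Real.rpow_add`, `Real.exp_mul`). -/
theorem pl_rho {k : ℕ} (hk : 0 < k) {lam : ℝ} (h0 : 0 < lam) (h1 : lam < 1)
    (f g h : ℝ → ENNReal) (hf : Measurable f) (hg : Measurable g) (hh : Measurable h)
    (H : ∀ x y, f x ^ (1 - lam) * g y ^ lam ≤ h (x ^ (1 - lam) * y ^ lam)) :
    (∫⁻ x, f x ∂(rho k)) ^ (1 - lam) * (∫⁻ x, g x ∂(rho k)) ^ lam ≤ ∫⁻ x, h x ∂(rho k) := by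
  rw [lintegral_rho k f hf, lintegral_rho k g hg, lintegral_rho k h hh]
  have hm : ∀ u : ℝ → ENNReal, Measurable u →
      Measurable fun s : ℝ => u (Real.exp s) * ENNReal.ofReal (k * Real.exp (k * s)) := by
    intro u hu
    exact (hu.comp Real.measurable_exp).mul (by fun_prop)
  refine pl_one h0 h1 _ _ _ (hm f hf) (hm g hg) (hm h hh) ?_
  intro s t
  have hk' : (0 : ℝ) < k := by exact_mod_cast hk
  have hl : 0 ≤ 1 - lam := by linarith
  rw [ENNReal.mul_rpow_of_nonneg _ _ hl, ENNReal.mul_rpow_of_nonneg _ _ h0.le]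
  have e1 : Real.exp s ^ (1 - lam) * Real.exp t ^ lam = Real.exp ((1 - lam) * s + lam * t) := by
    rw [← Real.exp_mul, ← Real.exp_mul, ← Real.exp_add]
    ring_nf
  have e2 : ENNReal.ofReal (k * Real.exp (k * s)) ^ (1 - lam) *
      ENNReal.ofReal (k * Real.exp (k * t)) ^ lam =
      ENNReal.ofReal (k * Real.exp (k * ((1 - lam) * s + lam * t))) := by
    rw [ENNReal.ofReal_rpow_of_pos (by positivity), ENNReal.ofReal_rpow_of_pos (by positivity),
      ← ENNReal.ofReal_mul (by positivity)]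
    congr 1
    rw [Real.mul_rpow hk'.le (Real.exp_pos _).le, Real.mul_rpow hk'.le (Real.exp_pos _).le,
      ← Real.exp_mul, ← Real.exp_mul]
    have e3 : (k : ℝ) ^ (1 - lam) * (k : ℝ) ^ lam = k := by
      rw [← Real.rpow_add hk']
      simp
    calc (k : ℝ) ^ (1 - lam) * Real.exp (k * s * (1 - lam)) * ((k : ℝ) ^ lam * Real.exp (k * t * lam))
        = ((k : ℝ) ^ (1 - lam) * (k : ℝ) ^ lam) *
          (Real.exp (k * s * (1 - lam)) * Real.exp (k * t * lam)) := by ring
      _ = k * Real.exp (k * ((1 - lam) * s + lam * t)) := by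
          rw [e3, ← Real.exp_add]
          ring_nf
  calc f (Real.exp s) ^ (1 - lam) * ENNReal.ofReal (k * Real.exp (k * s)) ^ (1 - lam) *
        (g (Real.exp t) ^ lam * ENNReal.ofReal (k * Real.exp (k * t)) ^ lam)
      = (f (Real.exp s) ^ (1 - lam) * g (Real.exp t) ^ lam) *
        (ENNReal.ofReal (k * Real.exp (k * s)) ^ (1 - lam) *
          ENNReal.ofReal (k * Real.exp (k * t)) ^ lam) := by ring
    _ ≤ h (Real.exp ((1 - lam) * s + lam * t)) *
        ENNReal.ofReal (k * Real.exp (k * ((1 - lam) * s + lam * t))) := by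
        rw [e2, ← e1]
        gcongr
        exact H _ _

/-- [D9] Fubini for the first coordinate: `measurePreserving_piFinSuccAbove (fun i => rho (d i)) 0`
(its `.symm`), `MeasurePreserving.lintegral_comp`, `lintegral_prod`. Adapt `lintegral_succ` of
P074/Third/PL. -/
theorem lintegral_pi_rho_succ {n : ℕ} (d : Fin (n + 1) → ℕ) (f : (Fin (n + 1) → ℝ) → ENNReal)
    (hf : Measurable f) :
    ∫⁻ x, f x ∂(Measure.pi fun c => rho (d c)) =
      ∫⁻ t : ℝ, ∫⁻ z : Fin n → ℝ, f (Fin.cons t z) ∂(Measure.pi fun c : Fin n => rho (d c.succ))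
        ∂(rho (d 0)) := by
  have e := (measurePreserving_piFinSuccAbove (fun i => rho (d i)) 0).symm
  rw [← e.lintegral_comp hf]
  rw [lintegral_prod (fun a => f ((MeasurableEquiv.piFinSuccAbove (fun _ => ℝ) 0).symm a))
    (hf.comp (MeasurableEquiv.measurable _)).aemeasurable]
  refine lintegral_congr fun t => lintegral_congr fun z => ?_
  congr 1
  simp [MeasurableEquiv.piFinSuccAbove, Fin.insertNthEquiv]

/-- [D10] `Measurable.lintegral_prod_right'` applied to `f ∘ (fun p => Fin.cons p.1 p.2)`.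
Adapt `measurable_cons_marg` of P074/Third/PL. -/
theorem measurable_cons_marg {n : ℕ} (μ : Measure (Fin n → ℝ)) [SFinite μ]
    (f : (Fin (n + 1) → ℝ) → ENNReal) (hf : Measurable f) :
    Measurable fun t : ℝ => ∫⁻ z : Fin n → ℝ, f (Fin.cons t z) ∂μ := by
  have h1 : Measurable fun p : ℝ × (Fin n → ℝ) => (Fin.cons p.1 p.2 : Fin (n+1) → ℝ) := by
    rw [measurable_pi_iff]
    intro i
    refine Fin.cases ?_ (fun j => ?_) i
    · simpa using measurable_fst
    · simpa [Function.comp_def] using (measurable_pi_apply j).comp measurable_snd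
  exact (hf.comp h1).lintegral_prod_right'

/-- Copied from P074/Third/PL. -/
theorem measurable_cons_sec {n : ℕ} (f : (Fin (n+1) → ℝ) → ENNReal) (hf : Measurable f) (t : ℝ) :
    Measurable fun z : Fin n → ℝ => f (Fin.cons t z) := by
  have h1 : Measurable fun z : (Fin n → ℝ) => (Fin.cons t z : Fin (n+1) → ℝ) := by
    rw [measurable_pi_iff]
    intro i
    refine Fin.cases ?_ (fun j => ?_) i
    · simp
    · simpa using (measurable_pi_apply j)
  exact hf.comp h1

/-- [D11] Base case: `Measure.pi_of_empty`, `lintegral_dirac`, and `H` at the unique point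
(`Subsingleton.elim`). -/
theorem pl_pi_rho_zero {lam : ℝ} (d : Fin 0 → ℕ) (f g h : (Fin 0 → ℝ) → ENNReal)
    (H : ∀ x y, f x ^ (1 - lam) * g y ^ lam ≤ h (fun c => x c ^ (1 - lam) * y c ^ lam)) :
    (∫⁻ x, f x ∂(Measure.pi fun c => rho (d c))) ^ (1 - lam) *
      (∫⁻ x, g x ∂(Measure.pi fun c => rho (d c))) ^ lam ≤
      ∫⁻ x, h x ∂(Measure.pi fun c => rho (d c)) := by
  rw [Measure.pi_of_empty (fun c => rho (d c)) 0, lintegral_dirac, lintegral_dirac,
    lintegral_dirac]
  have h2 := H 0 0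
  have e : (fun c : Fin 0 => (0 : Fin 0 → ℝ) c ^ (1 - lam) * (0 : Fin 0 → ℝ) c ^ lam) = 0 :=
    Subsingleton.elim _ _
  rwa [e] at h2

/-- Multiplicative Prekopa-Leindler for the product of the measures `rho (d c)`. -/
theorem pl_pi_rho {lam : ℝ} (h0 : 0 < lam) (h1 : lam < 1) (m : ℕ) :
    ∀ (d : Fin m → ℕ) (_ : ∀ c, 0 < d c) (f g h : (Fin m → ℝ) → ENNReal) (_ : Measurable f)
      (_ : Measurable g) (_ : Measurable h)
      (_ : ∀ x y, f x ^ (1 - lam) * g y ^ lam ≤ h (fun c => x c ^ (1 - lam) * y c ^ lam)),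
      (∫⁻ x, f x ∂(Measure.pi fun c => rho (d c))) ^ (1 - lam) *
        (∫⁻ x, g x ∂(Measure.pi fun c => rho (d c))) ^ lam ≤
        ∫⁻ x, h x ∂(Measure.pi fun c => rho (d c)) := by
  induction m with
  | zero =>
    intro d _ f g h _ _ _ H
    exact pl_pi_rho_zero d f g h H
  | succ n ih =>
    intro d hd f g h hf hg hh H
    rw [lintegral_pi_rho_succ d f hf, lintegral_pi_rho_succ d g hg, lintegral_pi_rho_succ d h hh]
    refine pl_rho (hd 0) h0 h1 _ _ _ (measurable_cons_marg _ f hf) (measurable_cons_marg _ g hg)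
      (measurable_cons_marg _ h hh) ?_
    intro s t
    refine ih (fun c => d c.succ) (fun c => hd c.succ) _ _ _ (measurable_cons_sec f hf s)
      (measurable_cons_sec g hg t) (measurable_cons_sec h hh _) ?_
    intro z w
    have h2 : (Fin.cons (s ^ (1 - lam) * t ^ lam) (fun c => z c ^ (1 - lam) * w c ^ lam) :
        Fin (n + 1) → ℝ) = fun c => (Fin.cons s z : Fin (n + 1) → ℝ) c ^ (1 - lam) *
          (Fin.cons t w : Fin (n + 1) → ℝ) c ^ lam := by
      funext i
      refine Fin.cases ?_ (fun j => ?_) i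
      · simp
      · simp
    rw [h2]
    exact H _ _

variable {m : ℕ} {d : Fin m → ℕ}

/-- [D12] `pl_pi_rho` with the indicator functions `U.indicator 1`, `V.indicator 1`,
`(geomBody U V lam).indicator 1` (`lintegral_indicator_one`, `measurable_one.indicator`,
`IsCompact.measurableSet`, `measurableSet_geomBody`). Hypothesis: if `x ∈ U` and `y ∈ V` the right
side is `1` by `rpow_mul_rpow_mem_geomBody` and the left side is `1`; otherwise the left side is `0`
(`ENNReal.zero_rpow_of_pos`). -/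
theorem pi_rho_geomBody_open (hd : ∀ c, 0 < d c) {U V : Set (Fin m → ℝ)} (hU : IsCompact U)
    (hV : IsCompact V) {lam : ℝ} (h0 : 0 < lam) (h1 : lam < 1) :
    (Measure.pi fun c => rho (d c)) U ^ (1 - lam) * (Measure.pi fun c => rho (d c)) V ^ lam ≤
      (Measure.pi fun c => rho (d c)) (geomBody U V lam) := by
  have hUm : MeasurableSet U := hU.measurableSet
  have hVm : MeasurableSet V := hV.measurableSet
  have hGm : MeasurableSet (geomBody U V lam) := measurableSet_geomBody hU hV h0.le h1.le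
  have H := pl_pi_rho h0 h1 m d hd (U.indicator 1) (V.indicator 1)
    ((geomBody U V lam).indicator 1) (measurable_one.indicator hUm) (measurable_one.indicator hVm)
    (measurable_one.indicator hGm) ?_
  · rwa [lintegral_indicator_one hUm, lintegral_indicator_one hVm,
      lintegral_indicator_one hGm] at H
  · intro x y
    by_cases hx : x ∈ U
    · by_cases hy : y ∈ V
      · have hm := rpow_mul_rpow_mem_geomBody hx hy lam
        rw [Set.indicator_of_mem hx, Set.indicator_of_mem hy, Set.indicator_of_mem hm]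
        simp
      · rw [Set.indicator_of_notMem hy, ENNReal.zero_rpow_of_pos h0]
        simp
    · rw [Set.indicator_of_notMem hx, ENNReal.zero_rpow_of_pos (by linarith)]
      simp

/-- [D13] For `u ∈ U` and any `v ∈ V`: `|u c| ≤ |u c| ^ (1 - 0) * |v c| ^ 0` (`simp`). -/
theorem subset_geomBody_zero {U V : Set (Fin m → ℝ)} (hV : V.Nonempty) :
    U ⊆ geomBody U V 0 := by
  obtain ⟨v, hv⟩ := hV
  intro u hu
  exact ⟨u, hu, v, hv, fun c => by simp⟩

/-- [D14] For `v ∈ V` and any `u ∈ U`: `|v c| ≤ |u c| ^ (1 - 1) * |v c| ^ 1` (`simp`). -/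
theorem subset_geomBody_one {U V : Set (Fin m → ℝ)} (hU : U.Nonempty) :
    V ⊆ geomBody U V 1 := by
  obtain ⟨u, hu⟩ := hU
  intro v hv
  exact ⟨u, hu, v, hv, fun c => by simp⟩

theorem pi_rho_geomBody (hd : ∀ c, 0 < d c) {U V : Set (Fin m → ℝ)} (hU : IsUncondBody U)
    (hV : IsUncondBody V) {lam : ℝ} (h0 : 0 ≤ lam) (h1 : lam ≤ 1) :
    (Measure.pi fun c => rho (d c)) U ^ (1 - lam) * (Measure.pi fun c => rho (d c)) V ^ lam ≤
      (Measure.pi fun c => rho (d c)) (geomBody U V lam) := by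
  rcases eq_or_lt_of_le h0 with h | h0'
  · subst h
    simpa using measure_mono (subset_geomBody_zero (hV.nonempty_interior.mono interior_subset))
  rcases eq_or_lt_of_le h1 with h | h1'
  · subst h
    simpa using measure_mono (subset_geomBody_one (hU.nonempty_interior.mono interior_subset))
  exact pi_rho_geomBody_open hd hU.isCompact hV.isCompact h0' h1'

end Vale.Agent.P227.Prod
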