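import Mathlib
import Vale.Agent.P227.Prod.Defs
import Vale.Agent.P227.Prod.Basic
import Vale.Agent.P227.Prod.Uncond
import Vale.Agent.P227.Prod.Block
import Vale.Agent.P227.Prod.Vol
import Vale.Agent.P227.Prod.PL

open MeasureTheory
open scoped Pointwise

namespace Vale.Agent.P227.Prod

variable {m : ℕ} {d : Fin m → ℕ}

/-- [F1] Pure `ENNReal` algebra: `ENNReal.mul_rpow_of_nonneg`, `ENNReal.finsetProd_rpow` (or
induction on the finset with `ENNReal.mul_rpow_of_nonneg`), `Finset.prod_mul_distrib`,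
`Finset.prod_le_prod'`, `mul_le_mul'`, and commutativity (`ring` / `mul_mul_mul_comm`). -/
theorem ennreal_assembly (a b c : Fin m → ENNReal) (x y z : ENNReal) {lam : ℝ} (h0 : 0 ≤ lam)
    (h1 : lam ≤ 1) (h : ∀ i, a i ^ (1 - lam) * b i ^ lam ≤ c i)
    (hxyz : x ^ (1 - lam) * y ^ lam ≤ z) :
    ((∏ i, a i) * x) ^ (1 - lam) * ((∏ i, b i) * y) ^ lam ≤ (∏ i, c i) * z := by
  have hl : 0 ≤ 1 - lam := by linarith
  rw [ENNReal.mul_rpow_of_nonneg _ _ hl, ENNReal.mul_rpow_of_nonneg _ _ h0,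
    ← ENNReal.prod_rpow_of_nonneg hl, ← ENNReal.prod_rpow_of_nonneg h0]
  calc (∏ i, a i ^ (1 - lam)) * x ^ (1 - lam) * ((∏ i, b i ^ lam) * y ^ lam)
      = (∏ i, a i ^ (1 - lam) * b i ^ lam) * (x ^ (1 - lam) * y ^ lam) := by
        rw [Finset.prod_mul_distrib]
        ring
    _ ≤ (∏ i, c i) * z := by
        gcongr
        · exact h _

/-- Closure of the logarithmic Brunn-Minkowski inequality under unconditional products. -/
theorem logBM_blockBody (hd : ∀ c, 0 < d c)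
    {K L : (c : Fin m) → Set (EuclideanSpace ℝ (Fin (d c)))}
    (hK : ∀ c, IsSymmBody (K c)) (hL : ∀ c, IsSymmBody (L c))
    {U V : Set (Fin m → ℝ)} (hU : IsUncondBody U) (hV : IsUncondBody V)
    {lam : ℝ} (h0 : 0 ≤ lam) (h1 : lam ≤ 1) (hKL : ∀ c, LogBM (K c) (L c) lam) :
    LogBM (blockBody U K) (blockBody V L) lam := by
  unfold LogBM
  refine le_trans ?_ (measure_mono (blockBody_geomBody_subset hU hV hK hL h0 h1))
  rw [volume_blockBody hd hK hU.solid hU.isCompact.isClosed.measurableSet,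
    volume_blockBody hd hL hV.solid hV.isCompact.isClosed.measurableSet,
    volume_blockBody hd (fun c => isSymmBody_logComb (hK c) (hL c) h0 h1)
      (solid_geomBody U V lam) (measurableSet_geomBody hU.isCompact hV.isCompact h0 h1)]
  exact ennreal_assembly _ _ _ _ _ _ h0 h1 hKL (pi_rho_geomBody hd hU hV h0 h1)

theorem main {m : ℕ} (d : Fin m → ℕ) (hd : ∀ c, 0 < d c)
    (K L : (c : Fin m) → Set (EuclideanSpace ℝ (Fin (d c))))
    (hK : ∀ c, IsSymmBody (K c)) (hL : ∀ c, IsSymmBody (L c))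
    (U V : Set (Fin m → ℝ)) (hU : IsUncondBody U) (hV : IsUncondBody V)
    (lam : ℝ) (h0 : 0 ≤ lam) (h1 : lam ≤ 1) :
    IsSymmBody (blockBody U K) ∧ IsSymmBody (blockBody V L) ∧
      ((∀ c, LogBM (K c) (L c) lam) → LogBM (blockBody U K) (blockBody V L) lam) ∧
      LogBM (blockBody U K) (blockBody V K) lam :=
  ⟨isSymmBody_blockBody hU hK, isSymmBody_blockBody hV hL,
    fun hKL => logBM_blockBody hd hK hL hU hV h0 h1 hKL,
    logBM_blockBody hd hK hK hU hV h0 h1 fun c => logBM_self (hK c) h0 h1⟩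

end Vale.Agent.P227.Prod
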